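import Vale.Agent.P159.T1.H897.Trunc
import Vale.Agent.P159.T1.H934.Amp

/-!
Exploration of the `{h ≤ 0}` cluster of the left lip on the coarse graph: the event is the absence
of a path of vertices with heights `≤ 0` between the two lips, the kernel is `wI`. Proof: `amp_le`
on the graph with halved edges (`k` times), restricted to steps of size at most `1`, and `k → ∞`.
-/

open Filter Topology

namespace Vale.Agent.P159.T1.H897

open Vale.Agent.P159 Vale.Agent.P159.H353 Vale.Agent.P159.T1.H934 Vale.Agent.P159.R2.H729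

/-- one step inside `{h ≤ 0}` -/
def lowS {V E : Type} (s t : E → V) (h : V → ℤ) (x y : V) : Prop :=
  h x ≤ 0 ∧ h y ≤ 0 ∧ adjG s t x y

/-- the two lips are joined inside `{h ≤ 0}` -/
def LJ {V E : Type} (s t : E → V) (xl xr : V) (h : V → ℤ) : Prop :=
  Relation.ReflTransGen (lowS s t h) xl xr

section fine

variable {V E : Type} {s t : E → V}

/-- a path of the halved graph inside `{h ≤ 0}` gives a path of the graph -/
lemma LJ_of_dbl {xl : V} {h : V → ℤ} {g : E → ℤ} {y : V ⊕ E}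
    (h1 : Relation.ReflTransGen (lowS (s2 s) (t2 t) (Sum.elim h g)) (Sum.inl xl) y) :
    (∀ v, y = Sum.inl v → LJ s t xl v h) ∧
    (∀ e, y = Sum.inr e → LJ s t xl (s e) h ∧ h (s e) ≤ 0 ∨ LJ s t xl (t e) h ∧ h (t e) ≤ 0) := by
  induction h1 with
  | refl =>
    refine ⟨fun v hv => ?_, fun e he => by simp at he⟩
    rw [← Sum.inl.inj hv]
    exact Relation.ReflTransGen.refl
  | @tail a b _ hab ih =>
    obtain ⟨ih1, ih2⟩ := ih
    obtain ⟨ha, hb, ⟨e, c⟩, hec⟩ := hab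
    refine ⟨fun v hv => ?_, fun f hf => ?_⟩
    · subst hv
      rcases c with _ | _ <;> rcases hec with ⟨h3, h4⟩ | ⟨h3, h4⟩ <;>
        simp [s2, t2] at h3 h4
      · -- s2 (e,false) = inl (s e) = b, t2 = inr e = a
        subst h3 h4
        rcases ih2 e rfl with ⟨p1, p2⟩ | ⟨p1, p2⟩
        · exact p1
        · exact p1.tail ⟨p2, hb, e, Or.inr ⟨rfl, rfl⟩⟩
      · subst h3 h4
        rcases ih2 e rfl with ⟨p1, p2⟩ | ⟨p1, p2⟩
        · exact p1.tail ⟨p2, hb, e, Or.inl ⟨rfl, rfl⟩⟩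
        · exact p1
    · subst hf
      rcases c with _ | _ <;> rcases hec with ⟨h3, h4⟩ | ⟨h3, h4⟩ <;>
        simp [s2, t2] at h3 h4
      · subst h3 h4
        exact Or.inl ⟨ih1 _ rfl, ha⟩
      · subst h3 h4
        exact Or.inr ⟨ih1 _ rfl, ha⟩

lemma LJ_dbl {xl xr : V} {h : V → ℤ} {g : E → ℤ}
    (h1 : LJ (s2 s) (t2 t) (Sum.inl xl) (Sum.inl xr) (Sum.elim h g)) : LJ s t xl xr h :=
  (LJ_of_dbl h1).1 xr rfl

end fine

section amp

variable {V E : Type} [Fintype V] [Fintype E] {s t : E → V}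

/-- the tilted weights are summable -/
lemma summable_tilt (hc : Conn s t) {J : E → ℝ} (hJ : ∀ e, 0 ≤ J e) (xl : V) (ρ : V → ℝ) :
    Summable fun h : V → ℤ => if h xl = 0 then
      W (grd s t) J h * Real.exp (∑ v, ρ v * (h v : ℝ)) else 0 := by
  obtain ⟨a, ha⟩ := exists_ln hc xl ρ
  have hD := grdL_inj (l := px xl) hc ⟨()⟩
  have hJ1 : ∀ e, 0 ≤ (Sum.elim J (0 : Unit → ℝ)) e := by
    rintro (e | e)
    · exact hJ e
    · exact le_rfl
  have g1 : ∀ h : V → ℤ, |Real.exp (∑ v, ρ v * (h v : ℝ))| ≤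
      1 * Real.exp |ln (grdL s t (px xl)) a h| := fun h => by
    have : ln (grdL s t (px xl)) a h = ∑ v, ρ v * (h v : ℝ) := (ha h).symm
    rw [this, abs_of_pos (Real.exp_pos _), one_mul]
    exact Real.exp_le_exp.2 (le_abs_self _)
  have s1 := (summable_growth hD hJ1 a g1).of_abs
  refine s1.congr fun h => ?_
  rw [W_px]
  split_ifs
  · rfl
  · rw [zero_mul]

/-- the tilted weights, both lips pinned -/
lemma summable_tilt2 (hc : Conn s t) {J : E → ℝ} (hJ : ∀ e, 0 ≤ J e) (xl : V) (ρ : V → ℝ)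
    (Q : (V → ℤ) → Prop) [DecidablePred Q] (hQ : ∀ h, Q h → h xl = 0) :
    Summable fun h : V → ℤ => if Q h then
      W (grd s t) J h * Real.exp (∑ v, ρ v * (h v : ℝ)) else 0 := by
  refine Summable.of_nonneg_of_le (fun h => ?_) (fun h => ?_) (summable_tilt hc hJ xl ρ)
  · split_ifs
    · exact mul_nonneg (W_nonneg hJ _) (Real.exp_pos _).le
    · exact le_rfl
  · by_cases h1 : Q h
    · rw [if_pos h1, if_pos (hQ h h1)]
    · rw [if_neg h1]
      split_ifs
      · exact mul_nonneg (W_nonneg hJ _) (Real.exp_pos _).le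
      · exact le_rfl

open Classical in
omit [Fintype E] in
/-- the cluster of `{h ≤ 0}` -/
lemma good_of {xl xr : V} {h : V → ℤ} (h0 : h xl = 0) (h1 : ¬ LJ s t xl xr h)
    (h2 : ∀ e, |grd s t h e| ≤ 1) : Good s t xl xr h := by
  have hle : ∀ v, LJ s t xl v h → h v ≤ 0 := by
    intro v hv
    rcases Relation.ReflTransGen.cases_tail hv with rfl | ⟨w, -, hw⟩
    · exact h0.le
    · exact hw.2.1
  refine ⟨Finset.univ.filter fun v => LJ s t xl v h, ?_, ?_, ?_, ?_⟩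
  · rw [Finset.mem_filter]
    exact ⟨Finset.mem_univ _, Relation.ReflTransGen.refl⟩
  · rw [Finset.mem_filter]
    exact fun h3 => h1 h3.2
  · intro v hv
    exact hle v (Finset.mem_filter.1 hv).2
  · intro u hu v hv huv
    have hu' := (Finset.mem_filter.1 hu).2
    have hu0 := hle u hu'
    have hv1 : 1 ≤ h v := by
      by_contra h5
      apply hv
      rw [Finset.mem_filter]
      exact ⟨Finset.mem_univ _, Relation.ReflTransGen.tail hu' ⟨hu0, by omega, huv⟩⟩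
    obtain ⟨e, he⟩ := huv
    have h6 : |h (t e) - h (s e)| ≤ 1 := h2 e
    rw [abs_le] at h6
    rcases he with ⟨rfl, rfl⟩ | ⟨rfl, rfl⟩ <;> omega

omit [Fintype V] in
/-- the weights on the halved graph with the truncated kernels -/
lemma prod_kt_dbl (k : ℕ) (J : E → ℝ) (h : V → ℤ) (g : E → ℤ) :
    ∏ x, kt k (J2 J x) (grd (s2 s) (t2 t) (Sum.elim h g) x) =
      ∏ e, kt k (J e / 2) (g e - h (s e)) * kt k (J e / 2) (h (t e) - g e) := by
  rw [Fintype.prod_prod_type]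
  refine Finset.prod_congr rfl fun e _ => ?_
  rw [Fintype.prod_bool, mul_comm]
  rfl

omit [Fintype V] in
lemma hasSum_kt_dbl (k : ℕ) {J : E → ℝ} (hJ : ∀ e, 0 ≤ J e) (h : V → ℤ) :
    HasSum (fun g : E → ℤ => ∏ x, kt k (J2 J x) (grd (s2 s) (t2 t) (Sum.elim h g) x))
      (∏ e, kt (k + 1) (J e) (grd s t h e)) := by
  have h1 : ∀ e, HasSum (fun g : ℤ => kt k (J e / 2) (g - h (s e)) *
      kt k (J e / 2) (h (t e) - g)) (kt (k + 1) (J e) (h (t e) - h (s e))) := by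
    intro e
    have h2 := kt_succ_hasSum k (hJ e) (h (t e) - h (s e))
    have h3 := (Equiv.subRight (h (s e))).hasSum_iff.2 h2
    have e0 : ((fun m => kt k (J e / 2) m * kt k (J e / 2) (h (t e) - h (s e) - m)) ∘
        Equiv.subRight (h (s e))) =
        fun g : ℤ => kt k (J e / 2) (g - h (s e)) * kt k (J e / 2) (h (t e) - g) := by
      funext g
      show kt k (J e / 2) (g - h (s e)) * kt k (J e / 2) (h (t e) - h (s e) - (g - h (s e))) = _
      congr 2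
      ring
    rwa [e0] at h3
  have h4 := T1.H532.prod_real (a := fun e g => kt k (J e / 2) (g - h (s e)) *
    kt k (J e / 2) (h (t e) - g)) (fun e => (h1 e).summable)
  have e1 : (∏ e, ∑' g, kt k (J e / 2) (g - h (s e)) * kt k (J e / 2) (h (t e) - g)) =
      ∏ e, kt (k + 1) (J e) (grd s t h e) := Finset.prod_congr rfl fun e _ => (h1 e).tsum_eq
  rw [e1] at h4
  have e2 : (fun g : E → ℤ => ∏ x, kt k (J2 J x) (grd (s2 s) (t2 t) (Sum.elim h g) x)) =
      fun g => ∏ e, kt k (J e / 2) (g e - h (s e)) * kt k (J e / 2) (h (t e) - g e) :=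
    funext fun g => prod_kt_dbl k J h g
  rw [e2]
  exact h4

open Classical in
/-- summand of the left side with the truncated kernels -/
noncomputable def Fk (k : ℕ) (s t : E → V) (J : E → ℝ) (xl xr : V) (ρ : V → ℝ) (h : V → ℤ) : ℝ :=
  if (h xl = 0 ∧ h xr = 0) ∧ ¬ LJ s t xl xr h then
    (∏ e, kt k (J e) (grd s t h e)) * Real.exp (∑ v, ρ v * (h v : ℝ)) else 0

/-- left side with the truncated kernels -/
noncomputable def Lk (k : ℕ) (s t : E → V) (J : E → ℝ) (xl xr : V) (ρ : V → ℝ) : ℝ :=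
  ∑' h : V → ℤ, Fk k s t J xl xr ρ h

lemma Fk_nonneg {J : E → ℝ} (hJ : ∀ e, 0 ≤ J e) (k : ℕ) (xl xr : V) (ρ : V → ℝ) (h : V → ℤ) :
    0 ≤ Fk k s t J xl xr ρ h := by
  unfold Fk
  split_ifs
  · exact mul_nonneg (Finset.prod_nonneg fun e _ => kt_nonneg k (hJ e) _) (Real.exp_pos _).le
  · exact le_rfl

lemma Lk_summable (hc : Conn s t) {J : E → ℝ} (hJ : ∀ e, 0 ≤ J e) (k : ℕ) (xl xr : V)
    (ρ : V → ℝ) : Summable (Fk k s t J xl xr ρ) := by
  classical
  refine Summable.of_nonneg_of_le (Fk_nonneg hJ k xl xr ρ) (fun h => ?_)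
    (summable_tilt2 hc hJ xl ρ (fun h => (h xl = 0 ∧ h xr = 0) ∧ ¬ LJ s t xl xr h)
      fun h hh => hh.1.1)
  unfold Fk
  split_ifs
  · refine mul_le_mul_of_nonneg_right ?_ (Real.exp_pos _).le
    exact Finset.prod_le_prod (fun e _ => kt_nonneg k (hJ e) _) fun e _ => kt_le k (hJ e) _
  · exact le_rfl

lemma sum_elim (ρ : V → ℝ) (h : V → ℤ) (g : E → ℤ) :
    ∑ v, (Sum.elim ρ 0 : V ⊕ E → ℝ) v * ((Sum.elim h g : V ⊕ E → ℤ) v : ℝ) =
      ∑ v, ρ v * (h v : ℝ) := by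
  rw [Fintype.sum_sum_type]
  simp

/-- the partition functions do not change -/
lemma Zt_dbl {J : E → ℝ} (hJ : ∀ e, 0 ≤ J e) (xl xr : V) (ρ : V → ℝ) (p q : ℤ) :
    Zt (s2 s) (t2 t) (J2 J) (Sum.inl xl) (Sum.inl xr) (Sum.elim ρ 0) p q =
      Zt s t J xl xr ρ p q := by
  classical
  have h := tsum_dbl (s := s) (t := t) hJ (X := V → ℤ) (fun x => x)
    (fun h => if h xl = p ∧ h xr = q then Real.exp (∑ v, ρ v * (h v : ℝ)) else 0)
    (fun h => by split_ifs <;> positivity)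
  unfold Zt
  rw [← (eb V E).symm.tsum_eq]
  have e1 : ∀ h : V → ℤ, (if h xl = p ∧ h xr = q then
      W (grd s t) J h * Real.exp (∑ v, ρ v * (h v : ℝ)) else 0) =
      (if h xl = p ∧ h xr = q then Real.exp (∑ v, ρ v * (h v : ℝ)) else 0) *
        W (grd s t) J h := fun h => by
    split_ifs
    · ring
    · ring
  rw [tsum_congr e1, ← h]
  refine tsum_congr fun x => ?_
  obtain ⟨h, g⟩ := x
  show (if (Sum.elim h g : V ⊕ E → ℤ) (Sum.inl xl) = p ∧
      (Sum.elim h g : V ⊕ E → ℤ) (Sum.inl xr) = q then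
      W (grd (s2 s) (t2 t)) (J2 J) (Sum.elim h g) *
        Real.exp (∑ v, (Sum.elim ρ 0 : V ⊕ E → ℝ) v * ((Sum.elim h g : V ⊕ E → ℤ) v : ℝ)) else 0) =
    (if h xl = p ∧ h xr = q then Real.exp (∑ v, ρ v * (h v : ℝ)) else 0) *
      W (grd (s2 s) (t2 t)) (J2 J) (Sum.elim h g)
  rw [sum_elim]
  by_cases h1 : h xl = p ∧ h xr = q
  · have h1' : (Sum.elim h g : V ⊕ E → ℤ) (Sum.inl xl) = p ∧
      (Sum.elim h g : V ⊕ E → ℤ) (Sum.inl xr) = q := h1
    rw [if_pos h1', if_pos h1]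
    ring
  · have h1' : ¬ ((Sum.elim h g : V ⊕ E → ℤ) (Sum.inl xl) = p ∧
      (Sum.elim h g : V ⊕ E → ℤ) (Sum.inl xr) = q) := h1
    rw [if_neg h1', if_neg h1, zero_mul]

/-- one more halving decreases the left side -/
lemma Lk_dbl (hc : Conn s t) {J : E → ℝ} (hJ : ∀ e, 0 ≤ J e) (k : ℕ) (xl xr : V) (ρ : V → ℝ) :
    Lk (k + 1) s t J xl xr ρ ≤
      Lk k (s2 s) (t2 t) (J2 J) (Sum.inl xl) (Sum.inl xr) (Sum.elim ρ 0) := by
  have hs : Summable (Fk k (s2 s) (t2 t) (J2 J) (Sum.inl xl) (Sum.inl xr) (Sum.elim ρ 0)) :=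
    Lk_summable (conn2 hc) (J2_nonneg hJ) k (Sum.inl xl) (Sum.inl xr) (Sum.elim ρ 0)
  have hF0 := Fk_nonneg (s := s2 s) (t := t2 t) (J2_nonneg hJ) k (Sum.inl xl) (Sum.inl xr)
    (Sum.elim ρ 0)
  have hpt : ∀ (h : V → ℤ), ((h xl = 0 ∧ h xr = 0) ∧ ¬ LJ s t xl xr h) → ∀ g : E → ℤ,
      Fk k (s2 s) (t2 t) (J2 J) (Sum.inl xl) (Sum.inl xr) (Sum.elim ρ 0) (Sum.elim h g) =
      (∏ x, kt k (J2 J x) (grd (s2 s) (t2 t) (Sum.elim h g) x)) *
        Real.exp (∑ v, ρ v * (h v : ℝ)) := by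
    intro h h1 g
    have h4 : ((Sum.elim h g : V ⊕ E → ℤ) (Sum.inl xl) = 0 ∧
        (Sum.elim h g : V ⊕ E → ℤ) (Sum.inl xr) = 0) ∧
        ¬ LJ (s2 s) (t2 t) (Sum.inl xl) (Sum.inl xr) (Sum.elim h g) :=
      ⟨h1.1, fun h3 => h1.2 (LJ_dbl h3)⟩
    unfold Fk
    rw [if_pos h4, sum_elim]
  unfold Lk
  generalize Fk k (s2 s) (t2 t) (J2 J) (Sum.inl xl) (Sum.inl xr) (Sum.elim ρ 0) = FF at *
  have hs2 : Summable fun x : (V → ℤ) × (E → ℤ) => FF ((eb V E).symm x) :=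
    (eb V E).symm.summable_iff.2 hs
  rw [← (eb V E).symm.tsum_eq FF, hs2.tsum_prod]
  refine Summable.tsum_le_tsum (fun h => ?_) (Lk_summable hc hJ (k + 1) xl xr ρ) hs2.prod
  by_cases h1 : (h xl = 0 ∧ h xr = 0) ∧ ¬ LJ s t xl xr h
  · have h2 := (hasSum_kt_dbl (s := s) (t := t) k hJ h).mul_right
      (Real.exp (∑ v, ρ v * (h v : ℝ)))
    have h3 : Fk (k + 1) s t J xl xr ρ h = (∏ e, kt (k + 1) (J e) (grd s t h e)) *
        Real.exp (∑ v, ρ v * (h v : ℝ)) := by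
      unfold Fk
      rw [if_pos h1]
    rw [h3, ← h2.tsum_eq]
    exact le_of_eq (tsum_congr fun g => (hpt h h1 g).symm)
  · have h3 : Fk (k + 1) s t J xl xr ρ h = 0 := by
      unfold Fk
      rw [if_neg h1]
    rw [h3]
    exact tsum_nonneg fun g => hF0 _

/-- the inequality with truncated kernels -/
theorem amp_kt (k : ℕ) : ∀ {V E : Type} [Fintype V] [Fintype E] {s t : E → V} (_ : Conn s t)
    {J : E → ℝ} (_ : ∀ e, 0 ≤ J e) (xl xr : V) {ρ : V → ℝ} (_ : ∀ v, 0 ≤ ρ v),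
    Lk k s t J xl xr ρ * Zt s t J xl xr 0 0 0 ≤ Zt s t J xl xr 0 0 1 * Zt s t J xl xr ρ 1 0 := by
  induction k with
  | zero =>
    intro V E _ _ s t hc J hJ xl xr ρ hρ
    classical
    refine le_trans (mul_le_mul_of_nonneg_right ?_ ?_) (amp_le hc hJ xl xr hρ)
    · refine Summable.tsum_le_tsum (fun h => ?_) (Lk_summable hc hJ 0 xl xr ρ)
        (summable_tilt2 hc hJ xl ρ (fun h => (h xl = 0 ∧ h xr = 0) ∧ Good s t xl xr h)
          fun h hh => hh.1.1)
      unfold Fk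
      by_cases h1 : (h xl = 0 ∧ h xr = 0) ∧ ¬ LJ s t xl xr h
      · rw [if_pos h1]
        by_cases h2 : ∀ e, |grd s t h e| ≤ 1
        · rw [if_pos ⟨h1.1, good_of h1.1.1 h1.2 h2⟩]
          refine mul_le_mul_of_nonneg_right ?_ (Real.exp_pos _).le
          exact Finset.prod_le_prod (fun e _ => kt_nonneg 0 (hJ e) _) fun e _ => kt_le 0 (hJ e) _
        · rw [not_forall] at h2
          obtain ⟨e, he⟩ := h2
          have h3 : ∏ e, kt 0 (J e) (grd s t h e) = 0 := by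
            refine Finset.prod_eq_zero (Finset.mem_univ e) ?_
            simp only [kt]
            rw [if_neg he]
          rw [h3, zero_mul]
          split_ifs
          · exact mul_nonneg (W_nonneg hJ _) (Real.exp_pos _).le
          · exact le_rfl
      · rw [if_neg h1]
        split_ifs
        · exact mul_nonneg (W_nonneg hJ _) (Real.exp_pos _).le
        · exact le_rfl
    · refine tsum_nonneg fun h => ?_
      split_ifs
      · exact mul_nonneg (W_nonneg hJ _) (Real.exp_pos _).le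
      · exact le_rfl
  | succ k ih =>
    intro V E _ _ s t hc J hJ xl xr ρ hρ
    have h1 := ih (s := s2 s) (t := t2 t) (conn2 hc) (J2_nonneg hJ) (Sum.inl xl) (Sum.inl xr)
      (ρ := Sum.elim ρ 0) (by
        rintro (v | e)
        · exact hρ v
        · exact le_rfl)
    have h00 : (0 : V ⊕ E → ℝ) = Sum.elim (0 : V → ℝ) (0 : E → ℝ) := by
      funext x
      rcases x with v | e <;> rfl
    rw [h00, Zt_dbl hJ, Zt_dbl hJ, Zt_dbl hJ] at h1
    refine le_trans (mul_le_mul_of_nonneg_right (Lk_dbl hc hJ k xl xr ρ) ?_) h1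
    refine tsum_nonneg fun h => ?_
    split_ifs
    · exact mul_nonneg (W_nonneg hJ _) (Real.exp_pos _).le
    · exact le_rfl

open Classical in
/-- **Exploration of the cluster of `{h ≤ 0}` of the left lip**, coarse form. -/
theorem amp_coarse (hc : Conn s t) {J : E → ℝ} (hJ : ∀ e, 0 ≤ J e) (xl xr : V) {ρ : V → ℝ}
    (hρ : ∀ v, 0 ≤ ρ v) :
    (∑' h : V → ℤ, if (h xl = 0 ∧ h xr = 0) ∧ ¬ LJ s t xl xr h then
      W (grd s t) J h * Real.exp (∑ v, ρ v * (h v : ℝ)) else 0) * Zt s t J xl xr 0 0 0 ≤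
    Zt s t J xl xr 0 0 1 * Zt s t J xl xr ρ 1 0 := by
  have hZ0 : 0 ≤ Zt s t J xl xr 0 0 0 := tsum_nonneg fun h => by
    split_ifs
    · exact mul_nonneg (W_nonneg hJ _) (Real.exp_pos _).le
    · exact le_rfl
  rw [← tsum_mul_right]
  refine Real.tsum_le_of_sum_le (fun h => ?_) fun K => ?_
  · refine mul_nonneg ?_ hZ0
    split_ifs
    · exact mul_nonneg (W_nonneg hJ _) (Real.exp_pos _).le
    · exact le_rfl
  rw [← Finset.sum_mul]
  have h1 : Tendsto (fun k : ℕ => (∑ h ∈ K, Fk k s t J xl xr ρ h) *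
        Zt s t J xl xr 0 0 0) atTop (𝓝 ((∑ h ∈ K, if (h xl = 0 ∧ h xr = 0) ∧ ¬ LJ s t xl xr h then
      W (grd s t) J h * Real.exp (∑ v, ρ v * (h v : ℝ)) else 0) * Zt s t J xl xr 0 0 0)) := by
    refine Tendsto.mul_const _ (tendsto_finsetSum _ fun h _ => ?_)
    unfold Fk
    split_ifs
    · exact (tendsto_finsetProd _ fun e _ => kt_lim (hJ e) _).mul_const _
    · exact tendsto_const_nhds
  refine le_of_tendsto h1 (Eventually.of_forall fun k => ?_)
  refine le_trans (mul_le_mul_of_nonneg_right ?_ hZ0) (amp_kt k hc hJ xl xr hρ)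
  exact (Lk_summable hc hJ k xl xr ρ).sum_le_tsum K fun h _ => Fk_nonneg hJ k xl xr ρ h

end amp

end Vale.Agent.P159.T1.H897
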