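import Vale.Agent.P159.T1.H897.Fkg

/-!
FKG for a product of finitely many functions; finiteness of the set of configurations with
bounded steps.
-/

open Filter Topology Finset

namespace Vale.Agent.P159.T1.H897

section prod

variable {H : Type*} [DistribLattice H]

omit [DistribLattice H] in
lemma summable_mul_bdd {μ f : H → ℝ} (m0 : ∀ x, 0 ≤ μ x) (hm : Summable μ) {C : ℝ}
    (hf : ∀ x, |f x| ≤ C) : Summable fun x => μ x * f x := by
  refine Summable.of_norm_bounded (hm.mul_left C) fun x => ?_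
  rw [Real.norm_eq_abs, abs_mul, abs_of_nonneg (m0 x), mul_comm C]
  exact mul_le_mul_of_nonneg_left (hf x) (m0 x)

/-- FKG for a product: `E f_1 ... E f_k ≤ E (f_1 ... f_k)` for increasing functions with values
in `[0, 1]` -/
theorem fkg_prod {μ : H → ℝ} (m0 : ∀ x, 0 ≤ μ x) (hm : Summable μ) (hZ : 0 < ∑' x, μ x)
    (hL : Hol μ μ) {ι : Type*} (S : Finset ι) {f : ι → H → ℝ}
    (hf : ∀ i ∈ S, Monotone (f i)) (hf0 : ∀ i ∈ S, ∀ x, 0 ≤ f i x)
    (hf1 : ∀ i ∈ S, ∀ x, f i x ≤ 1) :
    ∏ i ∈ S, ((∑' x, μ x * f i x) / ∑' x, μ x) ≤ (∑' x, μ x * ∏ i ∈ S, f i x) / ∑' x, μ x := by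
  classical
  induction S using Finset.induction_on with
  | empty => simp [div_self hZ.ne']
  | @insert a S ha ih =>
    rw [Finset.prod_insert ha]
    have ih' := ih (fun i hi => hf i (Finset.mem_insert_of_mem hi))
      (fun i hi => hf0 i (Finset.mem_insert_of_mem hi))
      fun i hi => hf1 i (Finset.mem_insert_of_mem hi)
    have fa := hf a (Finset.mem_insert_self a S)
    have fa0 := hf0 a (Finset.mem_insert_self a S)
    have fa1 := hf1 a (Finset.mem_insert_self a S)
    have hP0 : ∀ x, 0 ≤ ∏ i ∈ S, f i x := fun x =>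
      Finset.prod_nonneg fun i hi => hf0 i (Finset.mem_insert_of_mem hi) x
    have hP1 : ∀ x, ∏ i ∈ S, f i x ≤ 1 := fun x =>
      Finset.prod_le_one (fun i hi => hf0 i (Finset.mem_insert_of_mem hi) x)
        fun i hi => hf1 i (Finset.mem_insert_of_mem hi) x
    have hPm : Monotone fun x => ∏ i ∈ S, f i x := fun x y hxy =>
      Finset.prod_le_prod (fun i hi => hf0 i (Finset.mem_insert_of_mem hi) x)
        fun i hi => hf i (Finset.mem_insert_of_mem hi) hxy
    have s1 : Summable fun x => μ x * f a x := summable_mul_bdd m0 hm (C := 1) fun x => by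
      rw [abs_of_nonneg (fa0 x)]; exact fa1 x
    have s2 : Summable fun x => μ x * ∏ i ∈ S, f i x := summable_mul_bdd m0 hm (C := 1) fun x => by
      rw [abs_of_nonneg (hP0 x)]; exact hP1 x
    have s3 : Summable fun x => μ x * (f a x * ∏ i ∈ S, f i x) :=
      summable_mul_bdd m0 hm (C := 1) fun x => by
        rw [abs_of_nonneg (mul_nonneg (fa0 x) (hP0 x))]
        exact mul_le_one₀ (fa1 x) (hP0 x) (hP1 x)
    have hF := fkg_tsum m0 hm s1 s2 s3 hL fa hPm
    have e : ∀ x, ∏ i ∈ insert a S, f i x = f a x * ∏ i ∈ S, f i x := fun x =>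
      Finset.prod_insert ha
    simp only [e]
    have hA : 0 ≤ (∑' x, μ x * f a x) / ∑' x, μ x :=
      div_nonneg (tsum_nonneg fun x => mul_nonneg (m0 x) (fa0 x)) hZ.le
    refine (mul_le_mul_of_nonneg_left ih' hA).trans ?_
    rw [div_mul_div_comm, div_le_div_iff₀ (mul_pos hZ hZ) hZ]
    calc (∑' x, μ x * f a x) * (∑' x, μ x * ∏ i ∈ S, f i x) * ∑' x, μ x
        ≤ (∑' x, μ x) * (∑' x, μ x * (f a x * ∏ i ∈ S, f i x)) * ∑' x, μ x :=
          mul_le_mul_of_nonneg_right hF hZ.le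
      _ = _ := by ring

/-- the same for the sum over a set -/
theorem fkg_prod_on {A : Set H} (hA : SetLe A A) {μ : H → ℝ} (m0 : ∀ x, 0 ≤ μ x)
    (hm : Summable fun h : A => μ h) (hZ : 0 < ∑' h : A, μ h)
    (hL : Hol μ μ) {ι : Type*} (S : Finset ι) {f : ι → H → ℝ}
    (hf : ∀ i ∈ S, Monotone (f i)) (hf0 : ∀ i ∈ S, ∀ x, 0 ≤ f i x)
    (hf1 : ∀ i ∈ S, ∀ x, f i x ≤ 1) :
    ∏ i ∈ S, ((∑' h : A, μ h * f i h) / ∑' h : A, μ h) ≤
      (∑' h : A, μ h * ∏ i ∈ S, f i h) / ∑' h : A, μ h := by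
  have e : ∀ F : H → ℝ, ∑' h : A, μ h * F h =
      ∑' h, A.indicator (fun _ => (1 : ℝ)) h * μ h * F h := fun F => by
    rw [tsum_on A fun h => μ h * F h]
    exact tsum_congr fun h => by ring
  have e' : ∑' h : A, μ h = ∑' h, A.indicator (fun _ => (1 : ℝ)) h * μ h := tsum_on A μ
  rw [e fun h => ∏ i ∈ S, f i h, e']
  simp only [e]
  rw [e'] at hZ
  exact fkg_prod (fun x => mul_nonneg (ind_nonneg A x) (m0 x)) (summable_on hm) hZ
    ((hol_ind hA).mul hL (ind_nonneg A) (ind_nonneg A) m0 m0) S hf hf0 hf1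

end prod

section fin

variable {V : Type*} [Finite V]

/-- finitely many heights with bounded steps, pinned on a set which reaches every vertex -/
theorem finite_of_steps {A : Set (V → ℤ)} {P : Set V} {b : V → ℤ}
    (hpin : ∀ h ∈ A, ∀ v ∈ P, h v = b v) {R : V → V → Prop} {N : ℤ}
    (hR : ∀ h ∈ A, ∀ u v, R u v → |h u - h v| ≤ N)
    (hP : ∀ v, ∃ p ∈ P, Relation.ReflTransGen R p v) : A.Finite := by
  classical
  cases nonempty_fintype V
  -- every height is bounded at every vertex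
  have key : ∀ v, ∃ C : ℤ, ∀ h ∈ A, |h v| ≤ C := by
    intro v
    obtain ⟨p, hp, hpv⟩ := hP v
    induction hpv with
    | refl => exact ⟨|b p|, fun h hh => by rw [hpin h hh p hp]⟩
    | @tail u v _ huv ih =>
      obtain ⟨C, hC⟩ := ih
      refine ⟨C + N, fun h hh => ?_⟩
      have h1 := hR h hh u v huv
      have h2 := hC h hh
      rw [abs_le] at h1 h2 ⊢
      constructor <;> omega
  choose C hC using key
  refine (Set.Finite.pi' fun v => Set.finite_Icc (-C v) (C v)).subset fun h hh v => ?_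
  have := hC v h hh
  rw [abs_le] at this
  exact ⟨this.1, this.2⟩

/-- summability when the weight vanishes for large steps -/
theorem summable_of_steps {A : Set (V → ℤ)} {F : (V → ℤ) → ℝ} {P : Set V} {b : V → ℤ}
    (hpin : ∀ h ∈ A, ∀ v ∈ P, h v = b v) {R : V → V → Prop} {N : ℤ}
    (hR : ∀ h ∈ A, F h ≠ 0 → ∀ u v, R u v → |h u - h v| ≤ N)
    (hP : ∀ v, ∃ p ∈ P, Relation.ReflTransGen R p v) : Summable fun h : A => F h := by
  have hfin : (A ∩ {h | F h ≠ 0}).Finite :=
    finite_of_steps (b := b) (fun h hh => hpin h hh.1) (fun h hh => hR h hh.1 hh.2) hP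
  have hfin' : (Function.support fun h : A => F h).Finite := by
    refine Set.Finite.of_finite_image (f := Subtype.val) (hfin.subset ?_)
      Subtype.coe_injective.injOn
    rintro _ ⟨h, hh, rfl⟩
    exact ⟨h.2, hh⟩
  exact summable_of_hasFiniteSupport hfin'

end fin

end Vale.Agent.P159.T1.H897
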