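import Vale.Agent.P159.T1.H897.Fkg
import Vale.Agent.P159.T1.H934.Kern

/-!
Log-concavity of the kernel with unit steps, of its convolution powers and of the weights
`wI J n = I_n(J)`.
-/

open Topology Finset

namespace Vale.Agent.P159.T1.H897

open Vale.Agent.P159 Vale.Agent.P159.H353 Vale.Agent.P159.T1.H254 Vale.Agent.P159.R2.H254

/-- unit steps -/
theorem logC_ker {α β : ℝ} (hβ : 0 ≤ β) (h : β ≤ α) : LogC (ker α β) := by
  intro a b c d h1 h2 h3
  have hnn : ∀ n, 0 ≤ ker α β n := by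
    intro n
    unfold ker
    split_ifs <;> linarith
  by_cases hA : |a| ≤ 1 ∧ |d| ≤ 1
  · obtain ⟨ha, hd⟩ := hA
    rw [abs_le] at ha hd
    obtain ⟨ha1, ha2⟩ := ha
    obtain ⟨hd1, hd2⟩ := hd
    have hb1 : -1 ≤ b := by omega
    have hb2 : b ≤ 1 := by omega
    have hc : c = a + d - b := by omega
    subst hc
    interval_cases a <;> interval_cases d <;> interval_cases b <;>
      first
        | omega
        | (simp [ker]; try nlinarith)
  · have h0 : ker α β a * ker α β d = 0 := by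
      rw [not_and_or, not_le, not_le] at hA
      have hz : ∀ n : ℤ, 1 < |n| → ker α β n = 0 := by
        intro n hn
        unfold ker
        rw [if_neg (by rintro rfl; simp at hn), if_neg hn.ne']
      rcases hA with hA | hA
      · rw [hz a hA, zero_mul]
      · rw [hz d hA, mul_zero]
    rw [h0]
    exact mul_nonneg (hnn _) (hnn _)

lemma kerP_nonneg {β : ℝ} (hβ : 0 ≤ β) (m : ℕ) (n : ℤ) : 0 ≤ kerP β m n := by
  induction m generalizing n with
  | zero => simp only [kerP]; split_ifs <;> norm_num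
  | succ m ih =>
    simp only [kerP]
    exact add_nonneg (ih n) (mul_nonneg hβ (add_nonneg (ih _) (ih _)))

lemma kerP_zero_of (β : ℝ) (m : ℕ) (n : ℤ) (h : (m : ℤ) < |n|) : kerP β m n = 0 := by
  induction m generalizing n with
  | zero =>
    simp only [kerP]
    rw [if_neg]
    rintro rfl
    simp at h
  | succ m ih =>
    simp only [kerP]
    rw [lt_abs] at h
    push_cast at h
    rw [ih n (by rw [lt_abs]; omega), ih (n - 1) (by rw [lt_abs]; omega),
      ih (n + 1) (by rw [lt_abs]; omega)]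
    ring

lemma summable_kerP (β : ℝ) (m : ℕ) : Summable (kerP β m) := by
  refine summable_of_ne_finset_zero (s := Finset.Icc (-(m : ℤ)) m) fun n hn => ?_
  rw [Finset.mem_Icc] at hn
  exact kerP_zero_of β m n (by rw [lt_abs]; omega)

/-- one more convolution -/
lemma kerP_succ_conv (β : ℝ) (m : ℕ) (n : ℤ) :
    kerP β (m + 1) n = ∑' k : ℤ, kerP β m (n - k) * ker 1 β k := by
  rw [tsum_eq_sum (s := Finset.Icc (-1 : ℤ) 1)]
  · have : (Finset.Icc (-1 : ℤ) 1) = {-1, 0, 1} := by decide
    rw [this, Finset.sum_insert (by decide), Finset.sum_insert (by decide), Finset.sum_singleton]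
    have k1 : ker 1 β (-1) = β := by simp [ker]
    have k2 : ker 1 β 0 = 1 := by simp [ker]
    have k3 : ker 1 β 1 = β := by simp [ker]
    rw [k1, k2, k3, sub_neg_eq_add, sub_zero]
    simp only [kerP]
    ring
  · intro k hk
    rw [Finset.mem_Icc] at hk
    have h1 : (1 : ℤ) < |k| := by rw [lt_abs]; omega
    unfold ker
    rw [if_neg (by omega), if_neg h1.ne', mul_zero]

/-- convolution powers of the kernel with unit steps -/
theorem logC_kerP {β : ℝ} (hβ : 0 ≤ β) (h : β ≤ 1) (m : ℕ) : LogC (kerP β m) := by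
  induction m with
  | zero =>
    have : kerP β 0 = ker 1 0 := by
      funext n
      simp only [kerP, ker, ite_self]
    rw [this]
    exact logC_ker le_rfl zero_le_one
  | succ m ih =>
    have : kerP β (m + 1) = fun n => ∑' k : ℤ, kerP β m (n - k) * ker 1 β k :=
      funext fun n => kerP_succ_conv β m n
    rw [this]
    refine ih.conv (logC_ker hβ h) (kerP_nonneg hβ m) (fun n => ?_) (summable_kerP β m) ?_
    · unfold ker
      split_ifs <;> linarith
    · refine summable_of_ne_finset_zero (s := Finset.Icc (-1 : ℤ) 1) fun n hn => ?_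
      rw [Finset.mem_Icc] at hn
      have h1 : (1 : ℤ) < |n| := by rw [lt_abs]; omega
      unfold ker
      rw [if_neg (by omega), if_neg h1.ne']

/-! ### the weights of the planar rotator -/

/-- the weights of the Poisson law (without normalisation) -/
noncomputable def poi (x : ℝ) (k : ℤ) : ℝ :=
  if 0 ≤ k then x ^ k.toNat / (k.toNat.factorial : ℝ) else 0

lemma poi_nat (x : ℝ) (k : ℕ) : poi x k = x ^ k / (k.factorial : ℝ) := by
  unfold poi
  rw [if_pos (by omega), Int.toNat_natCast]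

lemma poi_neg_of (x : ℝ) {k : ℤ} (h : k < 0) : poi x k = 0 := by
  unfold poi
  rw [if_neg (by omega)]

lemma poi_nonneg {x : ℝ} (hx : 0 ≤ x) (k : ℤ) : 0 ≤ poi x k := by
  unfold poi
  split_ifs
  · positivity
  · exact le_rfl

lemma poi_nat_le {x : ℝ} (hx : 0 ≤ x) (a c i : ℕ) (hac : a ≤ c) :
    poi x a * poi x ((c + i : ℕ) : ℤ) ≤ poi x ((a + i : ℕ) : ℤ) * poi x c := by
  induction i with
  | zero => simp
  | succ i ih =>
    have e : ∀ k : ℕ, poi x ((k + 1 : ℕ) : ℤ) = poi x k * (x / (k + 1)) := by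
      intro k
      rw [poi_nat, poi_nat, pow_succ, Nat.factorial_succ]
      push_cast
      field_simp
    rw [← add_assoc, ← add_assoc, e (c + i), e (a + i)]
    have h1 : x / (((c + i : ℕ) : ℝ) + 1) ≤ x / (((a + i : ℕ) : ℝ) + 1) := by
      have : ((a + i : ℕ) : ℝ) ≤ ((c + i : ℕ) : ℝ) := by exact_mod_cast by omega
      exact div_le_div_of_nonneg_left hx (by positivity) (by linarith)
    calc poi x a * (poi x ((c + i : ℕ) : ℤ) * (x / (((c + i : ℕ) : ℝ) + 1)))
        = poi x a * poi x ((c + i : ℕ) : ℤ) * (x / (((c + i : ℕ) : ℝ) + 1)) := by ring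
      _ ≤ poi x ((a + i : ℕ) : ℤ) * poi x c * (x / (((a + i : ℕ) : ℝ) + 1)) :=
          mul_le_mul ih h1 (by positivity) (mul_nonneg (poi_nonneg hx _) (poi_nonneg hx _))
      _ = _ := by ring

theorem logC_poi {x : ℝ} (hx : 0 ≤ x) : LogC (poi x) := by
  intro a b c d h1 h2 h3
  rcases lt_or_ge a 0 with ha | ha
  · rw [poi_neg_of x ha, zero_mul]
    exact mul_nonneg (poi_nonneg hx _) (poi_nonneg hx _)
  · have h := poi_nat_le hx a.toNat c.toNat (b - a).toNat (by omega)
    rw [show ((a.toNat : ℕ) : ℤ) = a by omega, show ((c.toNat : ℕ) : ℤ) = c by omega,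
      show ((c.toNat + (b - a).toNat : ℕ) : ℤ) = d by omega,
      show ((a.toNat + (b - a).toNat : ℕ) : ℤ) = b by omega] at h
    exact h

lemma summable_poi (x : ℝ) : Summable (poi x) := by
  have h : Summable fun k : ℕ => poi x k := by
    refine (Real.summable_pow_div_factorial x).congr fun k => ?_
    rw [poi_nat]
  refine (Function.Injective.summable_iff Nat.cast_injective (f := poi x) ?_).1 h
  intro k hk
  refine poi_neg_of x ?_
  by_contra h0
  exact hk ⟨k.toNat, by omega⟩

lemma hsn_congr {ι : Type*} {f g : ι → ℂ} {a : ℂ} (hf : HasSum f a) (h : ∀ n, f n = g n) :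
    HasSum g a := by
  have : f = g := funext h
  rwa [this] at hf

/-- the generating function of the Poisson weights -/
lemma poi_hasSum (x : ℝ) (z : ℂ) : HasSum (fun k : ℤ => (poi x k : ℂ) * z ^ k) (Complex.exp (x * z)) := by
  have h : HasSum (fun k : ℕ => ((poi x k : ℝ) : ℂ) * z ^ ((k : ℕ) : ℤ)) (Complex.exp (x * z)) := by
    have h1 := NormedSpace.expSeries_div_hasSum_exp (𝔸 := ℂ) (x * z)
    rw [← Complex.exp_eq_exp_ℂ] at h1
    refine hsn_congr h1 fun k => ?_
    rw [poi_nat, zpow_natCast, mul_pow]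
    push_cast
    ring
  refine (Function.Injective.hasSum_iff Nat.cast_injective
    (f := fun k : ℤ => (poi x k : ℂ) * z ^ k) ?_).1 h
  intro k hk
  have : poi x k = 0 := by
    refine poi_neg_of x ?_
    by_contra h0
    exact hk ⟨k.toNat, by omega⟩
  rw [this]
  simp

/-- the convolution of the Poisson weights with their reflection -/
noncomputable def pcv (x : ℝ) (n : ℤ) : ℝ := ∑' k : ℤ, poi x (n - k) * poi x (-k)

lemma poi_refl_hasSum (x : ℝ) (z : ℂ) :
    HasSum (fun k : ℤ => (poi x (-k) : ℂ) * z ^ k) (Complex.exp (x * z⁻¹)) := by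
  have h := (Equiv.neg ℤ).hasSum_iff.2 (poi_hasSum x z⁻¹)
  refine hsn_congr h fun k => ?_
  simp only [Function.comp, Equiv.neg_apply]
  rw [inv_zpow, zpow_neg, inv_inv]

lemma summable_poi_refl (x : ℝ) : Summable fun k : ℤ => poi x (-k) := by
  have h : Summable (poi x ∘ fun k : ℤ => -k) := (summable_poi x).comp_injective neg_injective
  exact h

lemma summable_poi_sub {x : ℝ} (hx : 0 ≤ x) (n : ℤ) :
    Summable fun k : ℤ => poi x (n - k) * poi x (-k) := by
  have hb : ∀ n : ℤ, poi x n ≤ ∑' j, poi x j := fun n =>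
    (summable_poi x).le_tsum n fun j _ => poi_nonneg hx j
  exact Summable.of_nonneg_of_le
    (fun k => mul_nonneg (poi_nonneg hx (n - k)) (poi_nonneg hx (-k)))
    (fun k => mul_le_mul_of_nonneg_right (hb (n - k)) (poi_nonneg hx (-k)))
    ((summable_poi_refl x).mul_left (∑' j, poi x j))

lemma mul_hs {f g : ℤ → ℂ} {P Q : ℂ} (hP : HasSum f P) (hQ : HasSum g Q)
    (h1 : Summable fun k => ‖f k‖) (h2 : Summable fun k => ‖g k‖) :
    HasSum (fun x : ℤ × ℤ => f x.1 * g x.2) (P * Q) :=
  hP.mul hQ (summable_mul_of_summable_norm h1 h2)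

lemma conv_hasSum {p q : ℤ → ℝ} (p0 : ∀ k, 0 ≤ p k) (q0 : ∀ k, 0 ≤ q k) (sp : Summable p)
    (sq : Summable q) {z : ℂ} (hz : ‖z‖ = 1) {P Q : ℂ}
    (hP : HasSum (fun k : ℤ => (p k : ℂ) * z ^ k) P)
    (hQ : HasSum (fun k : ℤ => (q k : ℂ) * z ^ k) Q) :
    HasSum (fun n : ℤ => ((∑' k : ℤ, p (n - k) * q k : ℝ) : ℂ) * z ^ n) (P * Q) := by
  have hz0 : z ≠ 0 := T1.H934.norm_ne hz
  have hn : ∀ {f : ℤ → ℝ}, Summable f → (∀ k, 0 ≤ f k) →
      Summable fun k : ℤ => ‖(f k : ℂ) * z ^ k‖ := by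
    intro f hf h0
    refine hf.congr fun k => ?_
    rw [norm_mul, norm_zpow, hz, one_zpow, mul_one, Complex.norm_real, Real.norm_eq_abs,
      abs_of_nonneg (h0 k)]
  have h1 := hn sp p0
  have h2 := hn sq q0
  have h3 := mul_hs hP hQ h1 h2
  let e : ℤ × ℤ ≃ ℤ × ℤ :=
    { toFun := fun y => (y.1 - y.2, y.2)
      invFun := fun y => (y.1 + y.2, y.2)
      left_inv := fun y => by simp
      right_inv := fun y => by simp }
  have h4 : HasSum (fun y : ℤ × ℤ => (p (y.1 - y.2) : ℂ) * z ^ (y.1 - y.2) *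
      ((q y.2 : ℂ) * z ^ y.2)) (P * Q) :=
    hsn_congr (e.hasSum_iff.2 h3) fun y => rfl
  refine HasSum.prod_fiberwise h4 fun n => ?_
  have hb : ∀ n : ℤ, p n ≤ ∑' j, p j := fun n => sp.le_tsum n fun j _ => p0 j
  have h5 : Summable fun k : ℤ => p (n - k) * q k :=
    Summable.of_nonneg_of_le (fun k => mul_nonneg (p0 _) (q0 _))
      (fun k => mul_le_mul_of_nonneg_right (hb _) (q0 _)) (sq.mul_left (∑' j, p j))
  have h6 := (Complex.hasSum_ofReal.2 h5.hasSum).mul_right (z ^ n)
  refine hsn_congr h6 fun k => ?_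
  show ((p (n - k) * q k : ℝ) : ℂ) * z ^ n =
    (p (n - k) : ℂ) * z ^ (n - k) * ((q k : ℂ) * z ^ k)
  have h7 : z ^ n = z ^ (n - k) * z ^ k := by
    rw [← zpow_add₀ hz0]
    congr 1
    ring
  rw [h7]
  push_cast
  ring

lemma pcv_hasSum {x : ℝ} (hx : 0 ≤ x) {z : ℂ} (hz : ‖z‖ = 1) :
    HasSum (fun n : ℤ => (pcv x n : ℂ) * z ^ n) (Complex.exp (x * z) * Complex.exp (x * z⁻¹)) :=
  conv_hasSum (q := fun k => poi x (-k)) (poi_nonneg hx) (fun k => poi_nonneg hx (-k))
    (summable_poi x) (summable_poi_refl x) hz (poi_hasSum x z) (poi_refl_hasSum x z)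

/-- `I_n(J)` is the convolution of two Poisson weights -/
theorem wI_eq_pcv {J : ℝ} (hJ : 0 ≤ J) (n : ℤ) : wI J n = pcv (J / 2) n := by
  have hx : 0 ≤ J / 2 := by linarith
  have hsp : Summable fun n : ℤ => (pcv (J / 2) n : ℂ) := by
    have := (pcv_hasSum hx (z := 1) (by simp)).summable
    simpa using this
  have hsw : Summable fun n : ℤ => (wI J n : ℂ) := Complex.ofRealCLM.summable (summable_wI hJ)
  have h := T1.H934.coef_unique (a := fun n => (wI J n : ℂ) - (pcv (J / 2) n : ℂ)) (hsw.sub hsp)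
    (fun z hz => by
      have a1 := laurent hJ (T1.H934.norm_ne hz)
      have a2 := pcv_hasSum hx hz
      have a3 := a1.sub a2
      have e : Complex.exp (J * ((z + z⁻¹) / 2)) -
          Complex.exp (((J / 2 : ℝ) : ℂ) * z) * Complex.exp (((J / 2 : ℝ) : ℂ) * z⁻¹) = 0 := by
        rw [← Complex.exp_add, sub_eq_zero]
        congr 1
        push_cast
        ring
      rw [e] at a3
      rw [← a3.tsum_eq]
      exact tsum_congr fun n => by ring) n
  have h1 : (wI J n : ℂ) = (pcv (J / 2) n : ℂ) := sub_eq_zero.1 h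
  exact_mod_cast h1

/-- the weights of the planar rotator are log-concave -/
theorem logC_wI {J : ℝ} (hJ : 0 ≤ J) : LogC (wI J) := by
  have hx : 0 ≤ J / 2 := by linarith
  have e : wI J = fun n => ∑' k : ℤ, poi (J / 2) (n - k) * poi (J / 2) (-k) :=
    funext fun n => wI_eq_pcv hJ n
  rw [e]
  exact (logC_poi hx).conv (logC_poi hx).neg (poi_nonneg hx) (fun k => poi_nonneg hx (-k))
    (summable_poi _) (summable_poi_refl _)

end Vale.Agent.P159.T1.H897
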