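import Mathlib.Combinatorics.SetFamily.FourFunctions
import Vale.Agent.P159.T1.H254.UWDefs

/-!
Height FKG: the four functions theorem for sums over a distributive lattice, the inequality of
Holley, the FKG inequality; gradient weights with log-concave kernels on the heights `V → ℤ`.
-/

open Filter Topology Finset

namespace Vale.Agent.P159.T1.H897

section lattice

variable {H : Type*} [DistribLattice H]

/-- the four functions theorem for infinite sums -/
theorem four_tsum {f1 f2 f3 f4 : H → ℝ} (h1 : ∀ x, 0 ≤ f1 x) (h2 : ∀ x, 0 ≤ f2 x)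
    (h3 : ∀ x, 0 ≤ f3 x) (h4 : ∀ x, 0 ≤ f4 x) (s3 : Summable f3) (s4 : Summable f4)
    (h : ∀ a b, f1 a * f2 b ≤ f3 (a ⊓ b) * f4 (a ⊔ b)) :
    (∑' x, f1 x) * ∑' x, f2 x ≤ (∑' x, f3 x) * ∑' x, f4 x := by
  classical
  have hR : 0 ≤ (∑' x, f3 x) * ∑' x, f4 x := mul_nonneg (tsum_nonneg h3) (tsum_nonneg h4)
  by_cases s1 : Summable f1
  swap
  · rw [tsum_eq_zero_of_not_summable s1, zero_mul]
    exact hR
  by_cases s2 : Summable f2
  swap
  · rw [tsum_eq_zero_of_not_summable s2, mul_zero]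
    exact hR
  have t1 : Tendsto (fun s : Finset H => ∑ x ∈ s, f1 x) atTop (𝓝 (∑' x, f1 x)) := s1.hasSum
  have t2 : Tendsto (fun s : Finset H => ∑ x ∈ s, f2 x) atTop (𝓝 (∑' x, f2 x)) := s2.hasSum
  refine le_of_tendsto' (t1.mul t2) fun s => ?_
  refine (four_functions_theorem f1 f2 f3 f4 h1 h2 h3 h4 h s s).trans ?_
  exact mul_le_mul (s3.sum_le_tsum _ fun x _ => h3 x) (s4.sum_le_tsum _ fun x _ => h4 x)
    (Finset.sum_nonneg fun x _ => h4 x) (tsum_nonneg h3)

/-- the condition of Holley: `μ` is below `ν` -/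
def Hol (μ ν : H → ℝ) : Prop := ∀ x y, μ x * ν y ≤ μ (x ⊓ y) * ν (x ⊔ y)

lemma Hol.mul {μ ν μ' ν' : H → ℝ} (h : Hol μ ν) (h' : Hol μ' ν') (m0 : ∀ x, 0 ≤ μ x)
    (n0 : ∀ x, 0 ≤ ν x) (m0' : ∀ x, 0 ≤ μ' x) (n0' : ∀ x, 0 ≤ ν' x) :
    Hol (fun x => μ x * μ' x) fun x => ν x * ν' x := by
  intro x y
  have := mul_le_mul (h x y) (h' x y) (mul_nonneg (m0' _) (n0' _))
    (mul_nonneg (m0 _) (n0 _))
  calc μ x * μ' x * (ν y * ν' y) = μ x * ν y * (μ' x * ν' y) := by ring
    _ ≤ μ (x ⊓ y) * ν (x ⊔ y) * (μ' (x ⊓ y) * ν' (x ⊔ y)) := this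
    _ = _ := by ring

lemma Hol.prod {ι : Type*} {s : Finset ι} {μ ν : ι → H → ℝ} (h : ∀ i ∈ s, Hol (μ i) (ν i))
    (m0 : ∀ i ∈ s, ∀ x, 0 ≤ μ i x) (n0 : ∀ i ∈ s, ∀ x, 0 ≤ ν i x) :
    Hol (fun x => ∏ i ∈ s, μ i x) fun x => ∏ i ∈ s, ν i x := by
  intro x y
  simp only
  rw [← Finset.prod_mul_distrib, ← Finset.prod_mul_distrib]
  exact Finset.prod_le_prod (fun i hi => mul_nonneg (m0 i hi _) (n0 i hi _)) fun i hi => h i hi x y

/-- multiplication of the upper measure with a monotone function -/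
lemma Hol.mono_right {μ ν g : H → ℝ} (h : Hol μ ν) (m0 : ∀ x, 0 ≤ μ x) (n0 : ∀ x, 0 ≤ ν x)
    (g0 : ∀ x, 0 ≤ g x) (hg : Monotone g) : Hol μ fun x => ν x * g x := by
  intro x y
  calc μ x * (ν y * g y) = μ x * ν y * g y := by ring
    _ ≤ μ (x ⊓ y) * ν (x ⊔ y) * g (x ⊔ y) :=
        mul_le_mul (h x y) (hg le_sup_right) (g0 _) (mul_nonneg (m0 _) (n0 _))
    _ = _ := by ring

/-- multiplication of the lower measure with an antitone function -/
lemma Hol.anti_left {μ ν g : H → ℝ} (h : Hol μ ν) (m0 : ∀ x, 0 ≤ μ x) (n0 : ∀ x, 0 ≤ ν x)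
    (g0 : ∀ x, 0 ≤ g x) (hg : Antitone g) : Hol (fun x => μ x * g x) ν := by
  intro x y
  calc μ x * g x * ν y = μ x * ν y * g x := by ring
    _ ≤ μ (x ⊓ y) * ν (x ⊔ y) * g (x ⊓ y) :=
        mul_le_mul (h x y) (hg inf_le_left) (g0 _) (mul_nonneg (m0 _) (n0 _))
    _ = _ := by ring

/-- the indicators of two sets -/
lemma hol_ind {A A' : Set H} (h : ∀ x ∈ A, ∀ y ∈ A', x ⊓ y ∈ A ∧ x ⊔ y ∈ A') :
    Hol (A.indicator fun _ => (1 : ℝ)) (A'.indicator fun _ => (1 : ℝ)) := by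
  classical
  intro x y
  by_cases hx : x ∈ A
  · by_cases hy : y ∈ A'
    · obtain ⟨h1, h2⟩ := h x hx y hy
      rw [Set.indicator_of_mem hx, Set.indicator_of_mem hy, Set.indicator_of_mem h1,
        Set.indicator_of_mem h2]
    · rw [Set.indicator_of_notMem hy, mul_zero]
      exact mul_nonneg (Set.indicator_nonneg (fun _ _ => zero_le_one) _)
        (Set.indicator_nonneg (fun _ _ => zero_le_one) _)
  · rw [Set.indicator_of_notMem hx, zero_mul]
    exact mul_nonneg (Set.indicator_nonneg (fun _ _ => zero_le_one) _)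
      (Set.indicator_nonneg (fun _ _ => zero_le_one) _)

omit [DistribLattice H] in
lemma summable_pos_part {μ f : H → ℝ} (m0 : ∀ x, 0 ≤ μ x) (h : Summable fun x => μ x * f x) :
    Summable fun x => μ x * max (f x) 0 := by
  refine Summable.of_nonneg_of_le (fun x => mul_nonneg (m0 x) (le_max_right _ _)) (fun x => ?_)
    h.abs
  rw [abs_mul, abs_of_nonneg (m0 x)]
  exact mul_le_mul_of_nonneg_left (max_le (le_abs_self _) (abs_nonneg _)) (m0 x)

omit [DistribLattice H] in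
lemma summable_neg_part {μ f : H → ℝ} (m0 : ∀ x, 0 ≤ μ x) (h : Summable fun x => μ x * f x) :
    Summable fun x => μ x * max (-f x) 0 := by
  have h1 : Summable fun x => μ x * (-f x) := h.neg.congr fun x => by ring
  exact summable_pos_part m0 h1

omit [DistribLattice H] in
lemma tsum_parts {μ f : H → ℝ} (m0 : ∀ x, 0 ≤ μ x) (h : Summable fun x => μ x * f x) :
    ∑' x, μ x * f x = (∑' x, μ x * max (f x) 0) - ∑' x, μ x * max (-f x) 0 := by
  rw [← (summable_pos_part m0 h).tsum_sub (summable_neg_part m0 h)]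
  refine tsum_congr fun x => ?_
  rw [← mul_sub]
  congr 1
  rcases le_total 0 (f x) with h0 | h0
  · rw [max_eq_left h0, max_eq_right (by linarith)]
    ring
  · rw [max_eq_right h0, max_eq_left (by linarith)]
    ring

/-- the inequality of Holley -/
theorem holley_tsum {μ ν f : H → ℝ} (m0 : ∀ x, 0 ≤ μ x) (n0 : ∀ x, 0 ≤ ν x) (hm : Summable μ)
    (hn : Summable ν) (hmf : Summable fun x => μ x * f x) (hnf : Summable fun x => ν x * f x)
    (hL : Hol μ ν) (hf : Monotone f) :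
    (∑' x, μ x * f x) * (∑' x, ν x) ≤ (∑' x, μ x) * ∑' x, ν x * f x := by
  have hp : Monotone fun x => max (f x) 0 := fun x y h => max_le_max (hf h) le_rfl
  have hq : Antitone fun x => max (-f x) 0 := fun x y h =>
    max_le_max (neg_le_neg (hf h)) le_rfl
  have hp0 : ∀ x, 0 ≤ max (f x) 0 := fun x => le_max_right _ _
  have hq0 : ∀ x, 0 ≤ max (-f x) 0 := fun x => le_max_right _ _
  have e1 : (∑' x, μ x * max (f x) 0) * (∑' x, ν x) ≤ (∑' x, μ x) * ∑' x, ν x * max (f x) 0 := by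
    refine four_tsum (fun x => mul_nonneg (m0 x) (hp0 x)) n0 m0
      (fun x => mul_nonneg (n0 x) (hp0 x)) hm (summable_pos_part n0 hnf) fun x y => ?_
    calc μ x * max (f x) 0 * ν y = μ x * ν y * max (f x) 0 := by ring
      _ ≤ μ (x ⊓ y) * ν (x ⊔ y) * max (f (x ⊔ y)) 0 :=
          mul_le_mul (hL x y) (hp le_sup_left) (hp0 _) (mul_nonneg (m0 _) (n0 _))
      _ = _ := by ring
  have e2 : (∑' x, μ x) * (∑' x, ν x * max (-f x) 0) ≤ (∑' x, μ x * max (-f x) 0) * ∑' x, ν x := by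
    refine four_tsum m0 (fun x => mul_nonneg (n0 x) (hq0 x)) (fun x => mul_nonneg (m0 x) (hq0 x))
      n0 (summable_neg_part m0 hmf) hn fun x y => ?_
    calc μ x * (ν y * max (-f y) 0) = μ x * ν y * max (-f y) 0 := by ring
      _ ≤ μ (x ⊓ y) * ν (x ⊔ y) * max (-f (x ⊓ y)) 0 :=
          mul_le_mul (hL x y) (hq inf_le_right) (hq0 _) (mul_nonneg (m0 _) (n0 _))
      _ = _ := by ring
  rw [tsum_parts m0 hmf, tsum_parts n0 hnf, sub_mul, mul_sub]
  linarith

/-- the inequality of Holley for an antitone function -/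
theorem holley_tsum_anti {μ ν f : H → ℝ} (m0 : ∀ x, 0 ≤ μ x) (n0 : ∀ x, 0 ≤ ν x)
    (hm : Summable μ) (hn : Summable ν) (hmf : Summable fun x => μ x * f x)
    (hnf : Summable fun x => ν x * f x) (hL : Hol μ ν) (hf : Antitone f) :
    (∑' x, μ x) * (∑' x, ν x * f x) ≤ (∑' x, μ x * f x) * ∑' x, ν x := by
  have h := holley_tsum (f := fun x => -f x) m0 n0 hm hn (hmf.neg.congr fun x => by ring)
    (hnf.neg.congr fun x => by ring) hL (fun x y h => neg_le_neg (hf h))
  have e1 : ∑' x, μ x * -f x = -∑' x, μ x * f x := by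
    rw [← tsum_neg]
    exact tsum_congr fun x => by ring
  have e2 : ∑' x, ν x * -f x = -∑' x, ν x * f x := by
    rw [← tsum_neg]
    exact tsum_congr fun x => by ring
  rw [e1, e2] at h
  linarith

/-- the FKG inequality -/
theorem fkg_tsum {μ f g : H → ℝ} (m0 : ∀ x, 0 ≤ μ x) (hm : Summable μ)
    (hmf : Summable fun x => μ x * f x) (hmg : Summable fun x => μ x * g x)
    (hmfg : Summable fun x => μ x * (f x * g x))
    (hL : Hol μ μ) (hf : Monotone f) (hg : Monotone g) :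
    (∑' x, μ x * f x) * (∑' x, μ x * g x) ≤ (∑' x, μ x) * ∑' x, μ x * (f x * g x) := by
  have hp : Monotone fun x => max (g x) 0 := fun x y h => max_le_max (hg h) le_rfl
  have hq : Antitone fun x => max (-g x) 0 := fun x y h =>
    max_le_max (neg_le_neg (hg h)) le_rfl
  have hp0 : ∀ x, 0 ≤ max (g x) 0 := fun x => le_max_right _ _
  have hq0 : ∀ x, 0 ≤ max (-g x) 0 := fun x => le_max_right _ _
  have s1 : Summable fun x => μ x * max (g x) 0 * f x := by
    refine Summable.of_norm_bounded hmfg.abs fun x => ?_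
    rw [Real.norm_eq_abs, abs_mul, abs_mul, abs_mul, abs_mul, abs_of_nonneg (m0 x),
      abs_of_nonneg (hp0 x)]
    have : max (g x) 0 ≤ |g x| := max_le (le_abs_self _) (abs_nonneg _)
    calc μ x * max (g x) 0 * |f x| ≤ μ x * |g x| * |f x| :=
          mul_le_mul_of_nonneg_right (mul_le_mul_of_nonneg_left this (m0 x)) (abs_nonneg _)
      _ = _ := by ring
  have s2 : Summable fun x => μ x * max (-g x) 0 * f x := by
    refine Summable.of_norm_bounded hmfg.abs fun x => ?_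
    rw [Real.norm_eq_abs, abs_mul, abs_mul, abs_mul, abs_mul, abs_of_nonneg (m0 x),
      abs_of_nonneg (hq0 x)]
    have : max (-g x) 0 ≤ |g x| := max_le (neg_le_abs _) (abs_nonneg _)
    calc μ x * max (-g x) 0 * |f x| ≤ μ x * |g x| * |f x| :=
          mul_le_mul_of_nonneg_right (mul_le_mul_of_nonneg_left this (m0 x)) (abs_nonneg _)
      _ = _ := by ring
  have e1 := holley_tsum m0 (fun x => mul_nonneg (m0 x) (hp0 x)) hm (summable_pos_part m0 hmg)
    hmf s1 (hL.mono_right m0 m0 hp0 hp) hf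
  have e2 := holley_tsum (fun x => mul_nonneg (m0 x) (hq0 x)) m0 (summable_neg_part m0 hmg) hm
    s2 hmf (hL.anti_left m0 m0 hq0 hq) hf
  have e3 : ∑' x, μ x * (f x * g x) = (∑' x, μ x * max (g x) 0 * f x) -
      ∑' x, μ x * max (-g x) 0 * f x := by
    rw [← s1.tsum_sub s2]
    refine tsum_congr fun x => ?_
    rcases le_total 0 (g x) with h0 | h0
    · rw [max_eq_left h0, max_eq_right (by linarith)]
      ring
    · rw [max_eq_right h0, max_eq_left (by linarith)]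
      ring
  rw [e3, tsum_parts m0 hmg, mul_sub, mul_sub]
  linarith

end lattice

section kernels

/-- log-concavity of a kernel on the integers -/
def LogC (w : ℤ → ℝ) : Prop :=
  ∀ a b c d : ℤ, a + d = b + c → a ≤ b → a ≤ c → w a * w d ≤ w b * w c

lemma logC_const (c : ℝ) : LogC fun _ => c := fun _ _ _ _ _ _ _ => le_rfl

lemma LogC.neg {w : ℤ → ℝ} (h : LogC w) : LogC fun n => w (-n) := by
  intro a b c d h1 h2 h3
  have := h (-d) (-c) (-b) (-a) (by omega) (by omega) (by omega)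
  nlinarith [this]

lemma LogC.mul {w w' : ℤ → ℝ} (h : LogC w) (h' : LogC w') (h0 : ∀ n, 0 ≤ w n)
    (h0' : ∀ n, 0 ≤ w' n) : LogC fun n => w n * w' n := by
  intro a b c d h1 h2 h3
  have := mul_le_mul (h a b c d h1 h2 h3) (h' a b c d h1 h2 h3) (mul_nonneg (h0' _) (h0' _))
    (mul_nonneg (h0 _) (h0 _))
  calc w a * w' a * (w d * w' d) = w a * w d * (w' a * w' d) := by ring
    _ ≤ w b * w c * (w' b * w' c) := this
    _ = _ := by ring

lemma LogC.of_tendsto {w : ℤ → ℝ} {u : ℕ → ℤ → ℝ} (h : ∀ m, LogC (u m))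
    (hu : ∀ n, Tendsto (fun m => u m n) atTop (𝓝 (w n))) : LogC w := by
  intro a b c d h1 h2 h3
  exact le_of_tendsto_of_tendsto' ((hu a).mul (hu d)) ((hu b).mul (hu c)) fun m =>
    h m a b c d h1 h2 h3

/-- the convolution of two log-concave sequences is log-concave -/
theorem LogC.conv {p q : ℤ → ℝ} (hp : LogC p) (hq : LogC q) (p0 : ∀ n, 0 ≤ p n)
    (q0 : ∀ n, 0 ≤ q n) (sp : Summable p) (sq : Summable q) :
    LogC fun n => ∑' k : ℤ, p (n - k) * q k := by
  -- products of shifted sequences are summable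
  have hb : ∀ n, p n ≤ ∑' k, p k := fun n => sp.le_tsum n fun m _ => p0 m
  have hs : ∀ i j : ℤ, Summable fun k => p (i - k) * q (k - j) := by
    intro i j
    have h1 : Summable fun k : ℤ => q (k - j) := (Equiv.subRight j).summable_iff.2 sq
    exact Summable.of_nonneg_of_le (fun k => mul_nonneg (p0 _) (q0 _))
      (fun k => mul_le_mul_of_nonneg_right (hb _) (q0 _)) (h1.mul_left (∑' k, p k))
  have hw : ∀ i j : ℤ, ∑' k : ℤ, p (i - j - k) * q k = ∑' k : ℤ, p (i - k) * q (k - j) := by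
    intro i j
    rw [← (Equiv.subRight j).tsum_eq fun k : ℤ => p (i - j - k) * q k]
    refine tsum_congr fun k => ?_
    simp only [Equiv.subRight_apply]
    congr 2
    ring
  intro a b c d h1 h2 h3
  -- rows `b`, `d`; columns `0`, `b - a`
  set δ : ℤ := b - a with hδ
  have ea : a = b - δ := by omega
  have ed : d = d - 0 := by omega
  have eb : b = b - 0 := by omega
  have ec : c = d - δ := by omega
  show (∑' k : ℤ, p (a - k) * q k) * (∑' k : ℤ, p (d - k) * q k) ≤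
    (∑' k : ℤ, p (b - k) * q k) * (∑' k : ℤ, p (c - k) * q k)
  have ra : ∑' k : ℤ, p (a - k) * q k = ∑' k : ℤ, p (b - k) * q (k - δ) := by
    rw [ea]; exact hw b δ
  have rc : ∑' k : ℤ, p (c - k) * q k = ∑' k : ℤ, p (d - k) * q (k - δ) := by
    rw [ec]; exact hw d δ
  rw [ra, rc]
  have sb0 : Summable fun k => p (b - k) * q k := by simpa using hs b 0
  have sd0 : Summable fun k => p (d - k) * q k := by simpa using hs d 0
  have sbδ := hs b δ
  have sdδ := hs d δ
  have n1 : ∀ i j : ℤ, ∀ k, 0 ≤ p (i - k) * q (k - j) := fun i j k => mul_nonneg (p0 _) (q0 _)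
  have n0 : ∀ i : ℤ, ∀ k, 0 ≤ p (i - k) * q k := fun i k => mul_nonneg (p0 _) (q0 _)
  have m1 := sbδ.mul_of_nonneg sd0 (n1 b δ) (n0 d)
  have m2 := sb0.mul_of_nonneg sdδ (n0 b) (n1 d δ)
  rw [sbδ.tsum_mul_tsum sd0 m1, sb0.tsum_mul_tsum sdδ m2]
  have hsw : ∀ F : ℤ × ℤ → ℝ, ∑' x : ℤ × ℤ, F x.swap = ∑' x, F x := fun F =>
    (Equiv.prodComm ℤ ℤ).tsum_eq F
  rw [← sub_nonneg, ← m2.tsum_sub m1]
  have hS : Summable fun x : ℤ × ℤ => p (b - x.1) * q x.1 * (p (d - x.2) * q (x.2 - δ)) -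
      p (b - x.1) * q (x.1 - δ) * (p (d - x.2) * q x.2) := m2.sub m1
  have hS' : Summable fun x : ℤ × ℤ =>
      p (b - x.swap.1) * q x.swap.1 * (p (d - x.swap.2) * q (x.swap.2 - δ)) -
      p (b - x.swap.1) * q (x.swap.1 - δ) * (p (d - x.swap.2) * q x.swap.2) :=
    hS.comp_injective (Equiv.prodComm ℤ ℤ).injective
  have e2 : 2 * ∑' x : ℤ × ℤ, (p (b - x.1) * q x.1 * (p (d - x.2) * q (x.2 - δ)) -
      p (b - x.1) * q (x.1 - δ) * (p (d - x.2) * q x.2)) =
      ∑' x : ℤ × ℤ, (p (b - x.1) * p (d - x.2) - p (b - x.2) * p (d - x.1)) *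
        (q x.1 * q (x.2 - δ) - q (x.1 - δ) * q x.2) := by
    rw [two_mul]
    nth_rewrite 2 [← hsw]
    rw [← hS.tsum_add hS']
    refine tsum_congr fun x => ?_
    simp only [Prod.fst_swap, Prod.snd_swap]
    ring
  have e3 : 0 ≤ ∑' x : ℤ × ℤ, (p (b - x.1) * p (d - x.2) - p (b - x.2) * p (d - x.1)) *
        (q x.1 * q (x.2 - δ) - q (x.1 - δ) * q x.2) := by
    refine tsum_nonneg fun x => ?_
    rcases le_total x.1 x.2 with hx | hx
    · refine mul_nonneg (sub_nonneg.2 ?_) (sub_nonneg.2 ?_)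
      · exact hp _ _ _ _ (by omega) (by omega) (by omega)
      · exact hq _ _ _ _ (by omega) (by omega) (by omega)
    · refine mul_nonneg_of_nonpos_of_nonpos (sub_nonpos.2 ?_) (sub_nonpos.2 ?_)
      · exact hp _ _ _ _ (by omega) (by omega) (by omega)
      · have := hq (x.2 - δ) x.2 (x.1 - δ) x.1 (by omega) (by omega) (by omega)
        linarith
  linarith

end kernels

section on

variable {H : Type*} [DistribLattice H]

/-- `A` is below `A'` in the order of sets -/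
def SetLe (A A' : Set H) : Prop := ∀ x ∈ A, ∀ y ∈ A', x ⊓ y ∈ A ∧ x ⊔ y ∈ A'

omit [DistribLattice H] in
lemma tsum_on (A : Set H) (F : H → ℝ) :
    ∑' h : A, F h = ∑' h, A.indicator (fun _ => (1 : ℝ)) h * F h := by
  rw [tsum_subtype A F]
  refine tsum_congr fun h => ?_
  by_cases hA : h ∈ A
  · rw [Set.indicator_of_mem hA, Set.indicator_of_mem hA, one_mul]
  · rw [Set.indicator_of_notMem hA, Set.indicator_of_notMem hA, zero_mul]

omit [DistribLattice H] in
lemma summable_on {A : Set H} {F : H → ℝ} (h : Summable fun x : A => F x) :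
    Summable fun x => A.indicator (fun _ => (1 : ℝ)) x * F x := by
  refine (summable_subtype_iff_indicator.1 h).congr fun x => ?_
  by_cases hA : x ∈ A
  · rw [Set.indicator_of_mem hA, Set.indicator_of_mem hA, one_mul]
  · rw [Set.indicator_of_notMem hA, Set.indicator_of_notMem hA, zero_mul]

omit [DistribLattice H] in
lemma ind_nonneg (A : Set H) (x : H) : 0 ≤ A.indicator (fun _ => (1 : ℝ)) x :=
  Set.indicator_nonneg (fun _ _ => zero_le_one) _

/-- the inequality of Holley for sums over two sets -/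
theorem holley_on {A A' : Set H} (hA : SetLe A A') {μ ν f : H → ℝ} (m0 : ∀ x, 0 ≤ μ x)
    (n0 : ∀ x, 0 ≤ ν x) (hL : Hol μ ν) (hf : Monotone f)
    (s1 : Summable fun h : A => μ h) (s2 : Summable fun h : A' => ν h)
    (s3 : Summable fun h : A => μ h * f h) (s4 : Summable fun h : A' => ν h * f h) :
    (∑' h : A, μ h * f h) * (∑' h : A', ν h) ≤ (∑' h : A, μ h) * ∑' h : A', ν h * f h := by
  rw [tsum_on A (fun h => μ h * f h), tsum_on A' ν, tsum_on A μ, tsum_on A' fun h => ν h * f h]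
  simp only [← mul_assoc]
  refine holley_tsum (fun x => mul_nonneg (ind_nonneg A x) (m0 x))
    (fun x => mul_nonneg (ind_nonneg A' x) (n0 x)) (summable_on s1) (summable_on s2)
    ((summable_on (F := fun h => μ h * f h) s3).congr fun x => by ring)
    ((summable_on (F := fun h => ν h * f h) s4).congr fun x => by ring)
    ((hol_ind hA).mul hL (ind_nonneg A) (ind_nonneg A') m0 n0) hf

/-- the inequality of Holley for sums over two sets, antitone function -/
theorem holley_on_anti {A A' : Set H} (hA : SetLe A A') {μ ν f : H → ℝ} (m0 : ∀ x, 0 ≤ μ x)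
    (n0 : ∀ x, 0 ≤ ν x) (hL : Hol μ ν) (hf : Antitone f)
    (s1 : Summable fun h : A => μ h) (s2 : Summable fun h : A' => ν h)
    (s3 : Summable fun h : A => μ h * f h) (s4 : Summable fun h : A' => ν h * f h) :
    (∑' h : A, μ h) * (∑' h : A', ν h * f h) ≤ (∑' h : A, μ h * f h) * ∑' h : A', ν h := by
  rw [tsum_on A (fun h => μ h * f h), tsum_on A' ν, tsum_on A μ, tsum_on A' fun h => ν h * f h]
  simp only [← mul_assoc]
  refine holley_tsum_anti (fun x => mul_nonneg (ind_nonneg A x) (m0 x))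
    (fun x => mul_nonneg (ind_nonneg A' x) (n0 x)) (summable_on s1) (summable_on s2)
    ((summable_on (F := fun h => μ h * f h) s3).congr fun x => by ring)
    ((summable_on (F := fun h => ν h * f h) s4).congr fun x => by ring)
    ((hol_ind hA).mul hL (ind_nonneg A) (ind_nonneg A') m0 n0) hf

/-- FKG for the sum over a set -/
theorem fkg_on {A : Set H} (hA : SetLe A A) {μ f g : H → ℝ} (m0 : ∀ x, 0 ≤ μ x)
    (hL : Hol μ μ) (hf : Monotone f) (hg : Monotone g)
    (s1 : Summable fun h : A => μ h) (s2 : Summable fun h : A => μ h * f h)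
    (s3 : Summable fun h : A => μ h * g h) (s4 : Summable fun h : A => μ h * (f h * g h)) :
    (∑' h : A, μ h * f h) * (∑' h : A, μ h * g h) ≤
      (∑' h : A, μ h) * ∑' h : A, μ h * (f h * g h) := by
  rw [tsum_on A (fun h => μ h * f h), tsum_on A (fun h => μ h * g h), tsum_on A μ,
    tsum_on A fun h => μ h * (f h * g h)]
  have e : ∀ F : H → ℝ, ∑' h, A.indicator (fun _ => (1 : ℝ)) h * (μ h * F h) =
      ∑' h, A.indicator (fun _ => (1 : ℝ)) h * μ h * F h := fun F =>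
    tsum_congr fun h => by ring
  rw [e, e, e]
  refine fkg_tsum (fun x => mul_nonneg (ind_nonneg A x) (m0 x)) (summable_on s1)
    ((summable_on (F := fun h => μ h * f h) s2).congr fun x => by ring)
    ((summable_on (F := fun h => μ h * g h) s3).congr fun x => by ring)
    ((summable_on (F := fun h => μ h * (f h * g h)) s4).congr fun x => by ring)
    ((hol_ind hA).mul hL (ind_nonneg A) (ind_nonneg A) m0 m0) hf hg

end on

section graph

variable {V E : Type*} [Fintype V] [Fintype E] (s t : E → V)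

/-- the gradient weight with the kernels `w e` -/
noncomputable def Wk (w : E → ℤ → ℝ) (h : V → ℤ) : ℝ := ∏ e, w e (h (t e) - h (s e))

/-- the tilt -/
noncomputable def ex (ρ : V → ℝ) (h : V → ℤ) : ℝ := Real.exp (∑ v, ρ v * (h v : ℝ))

lemma ex_pos (ρ : V → ℝ) (h : V → ℤ) : 0 < ex ρ h := Real.exp_pos _

lemma ex_mono {ρ : V → ℝ} (hρ : ∀ v, 0 ≤ ρ v) : Monotone (ex ρ) := by
  intro g h hgh
  refine Real.exp_le_exp.2 (Finset.sum_le_sum fun v _ => ?_)
  exact mul_le_mul_of_nonneg_left (by exact_mod_cast hgh v) (hρ v)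

lemma ex_anti {ρ : V → ℝ} (hρ : ∀ v, 0 ≤ ρ v) : Antitone (ex fun v => -ρ v) := by
  intro g h hgh
  refine Real.exp_le_exp.2 (Finset.sum_le_sum fun v _ => ?_)
  have : ρ v * (g v : ℝ) ≤ ρ v * (h v : ℝ) :=
    mul_le_mul_of_nonneg_left (by exact_mod_cast hgh v) (hρ v)
  linarith

lemma ex_neg (ρ : V → ℝ) (h : V → ℤ) : ex ρ (-h) = ex (fun v => -ρ v) h := by
  unfold ex
  congr 1
  refine Finset.sum_congr rfl fun v _ => ?_
  rw [Pi.neg_apply]
  push_cast
  ring

lemma ex_add (ρ ρ' : V → ℝ) (h : V → ℤ) : ex (fun v => ρ v + ρ' v) h = ex ρ h * ex ρ' h := by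
  unfold ex
  rw [← Real.exp_add, ← Finset.sum_add_distrib]
  congr 1
  exact Finset.sum_congr rfl fun v _ => by ring

lemma ex_zero (h : V → ℤ) : ex (fun _ => (0 : ℝ)) h = 1 := by
  unfold ex
  simp

omit [Fintype V] in
/-- one edge -/
lemma hol_edge {w : ℤ → ℝ} (hw : LogC w) (a b : V) :
    Hol (fun h : V → ℤ => w (h b - h a)) fun h => w (h b - h a) := by
  intro x y
  simp only [Pi.inf_apply, Pi.sup_apply]
  rcases le_total (x a) (y a) with ha | ha <;> rcases le_total (x b) (y b) with hb | hb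
  · rw [inf_eq_left.2 ha, inf_eq_left.2 hb, sup_eq_right.2 ha, sup_eq_right.2 hb]
  · rw [inf_eq_left.2 ha, inf_eq_right.2 hb, sup_eq_right.2 ha, sup_eq_left.2 hb]
    have := hw (y b - y a) (y b - x a) (x b - y a) (x b - x a) (by ring) (by omega) (by omega)
    linarith
  · rw [inf_eq_right.2 ha, inf_eq_left.2 hb, sup_eq_left.2 ha, sup_eq_right.2 hb]
    exact hw (x b - x a) (x b - y a) (y b - x a) (y b - y a) (by ring) (by omega) (by omega)
  · rw [inf_eq_right.2 ha, inf_eq_right.2 hb, sup_eq_left.2 ha, sup_eq_left.2 hb]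
    exact le_of_eq (mul_comm _ _)

variable {s t}

omit [Fintype V] in
lemma Wk_nonneg {w : E → ℤ → ℝ} (w0 : ∀ e n, 0 ≤ w e n) (h : V → ℤ) : 0 ≤ Wk s t w h :=
  Finset.prod_nonneg fun e _ => w0 e _

omit [Fintype V] in
/-- the gradient weight -/
lemma hol_Wk {w : E → ℤ → ℝ} (w0 : ∀ e n, 0 ≤ w e n) (hw : ∀ e, LogC (w e)) :
    Hol (Wk s t w) (Wk s t w) := by
  unfold Wk
  exact Hol.prod (fun e _ => hol_edge (hw e) (s e) (t e)) (fun e _ x => w0 e _)
    fun e _ x => w0 e _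

/-- the tilts -/
lemma hol_ex {ρ ρ' : V → ℝ} (hρ : ∀ v, ρ v ≤ ρ' v) : Hol (ex ρ) (ex ρ') := by
  intro x y
  unfold ex
  rw [← Real.exp_add, ← Real.exp_add, Real.exp_le_exp, ← Finset.sum_add_distrib,
    ← Finset.sum_add_distrib]
  refine Finset.sum_le_sum fun v _ => ?_
  simp only [Pi.inf_apply, Pi.sup_apply]
  rcases le_total (x v) (y v) with h | h
  · rw [inf_eq_left.2 h, sup_eq_right.2 h]
  · rw [inf_eq_right.2 h, sup_eq_left.2 h]
    have h1 : (y v : ℝ) ≤ x v := by exact_mod_cast h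
    nlinarith [hρ v]

omit [Fintype V] in
lemma Wk_neg {w : E → ℤ → ℝ} (he : ∀ e n, w e (-n) = w e n) (h : V → ℤ) :
    Wk s t w (-h) = Wk s t w h := by
  unfold Wk
  refine Finset.prod_congr rfl fun e _ => ?_
  rw [← he e]
  congr 1
  simp only [Pi.neg_apply]
  ring

/-- weight and tilt -/
lemma hol_Wex {w : E → ℤ → ℝ} (w0 : ∀ e n, 0 ≤ w e n) (hw : ∀ e, LogC (w e)) {ρ ρ' : V → ℝ}
    (hρ : ∀ v, ρ v ≤ ρ' v) :
    Hol (fun h => Wk s t w h * ex ρ h) fun h => Wk s t w h * ex ρ' h :=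
  (hol_Wk w0 hw).mul (hol_ex hρ) (Wk_nonneg w0) (Wk_nonneg w0) (fun _ => (ex_pos _ _).le)
    fun _ => (ex_pos _ _).le

/-- the heights with the values `b` on `P` -/
def pin (P : Set V) (b : V → ℤ) : Set (V → ℤ) := {h | ∀ v ∈ P, h v = b v}

omit [Fintype V] in
lemma pin_le {P : Set V} {b b' : V → ℤ} (h : ∀ v ∈ P, b v ≤ b' v) : SetLe (pin P b) (pin P b') := by
  intro x hx y hy
  refine ⟨fun v hv => ?_, fun v hv => ?_⟩
  · rw [Pi.inf_apply, hx v hv, hy v hv, inf_eq_left.2 (h v hv)]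
  · rw [Pi.sup_apply, hx v hv, hy v hv, sup_eq_right.2 (h v hv)]

/-- monotonicity in the boundary values and in the tilt -/
theorem mono_bd {w : E → ℤ → ℝ} (w0 : ∀ e n, 0 ≤ w e n) (hw : ∀ e, LogC (w e))
    {P : Set V} {b b' : V → ℤ} (hb : ∀ v ∈ P, b v ≤ b' v) {ρ ρ' : V → ℝ}
    (hρ : ∀ v, ρ v ≤ ρ' v) {f : (V → ℤ) → ℝ} (hf : Monotone f)
    (s1 : Summable fun h : pin P b => Wk s t w h * ex ρ h)
    (s2 : Summable fun h : pin P b' => Wk s t w h * ex ρ' h)
    (s3 : Summable fun h : pin P b => Wk s t w h * ex ρ h * f h)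
    (s4 : Summable fun h : pin P b' => Wk s t w h * ex ρ' h * f h) :
    (∑' h : pin P b, Wk s t w h * ex ρ h * f h) * (∑' h : pin P b', Wk s t w h * ex ρ' h) ≤
      (∑' h : pin P b, Wk s t w h * ex ρ h) * ∑' h : pin P b', Wk s t w h * ex ρ' h * f h :=
  holley_on (μ := fun h => Wk s t w h * ex ρ h) (ν := fun h => Wk s t w h * ex ρ' h) (f := f)
    (pin_le hb) (fun h => mul_nonneg (Wk_nonneg w0 h) (ex_pos _ _).le)
    (fun h => mul_nonneg (Wk_nonneg w0 h) (ex_pos _ _).le) (hol_Wex w0 hw hρ) hf s1 s2 s3 s4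

/-- FKG for pinned heights with a tilt -/
theorem fkg_pin {w : E → ℤ → ℝ} (w0 : ∀ e n, 0 ≤ w e n) (hw : ∀ e, LogC (w e))
    {P : Set V} {b : V → ℤ} {ρ : V → ℝ} {f g : (V → ℤ) → ℝ} (hf : Monotone f)
    (hg : Monotone g)
    (s1 : Summable fun h : pin P b => Wk s t w h * ex ρ h)
    (s2 : Summable fun h : pin P b => Wk s t w h * ex ρ h * f h)
    (s3 : Summable fun h : pin P b => Wk s t w h * ex ρ h * g h)
    (s4 : Summable fun h : pin P b => Wk s t w h * ex ρ h * (f h * g h)) :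
    (∑' h : pin P b, Wk s t w h * ex ρ h * f h) * (∑' h : pin P b, Wk s t w h * ex ρ h * g h) ≤
      (∑' h : pin P b, Wk s t w h * ex ρ h) * ∑' h : pin P b, Wk s t w h * ex ρ h * (f h * g h) :=
  fkg_on (μ := fun h => Wk s t w h * ex ρ h) (f := f) (g := g) (pin_le fun _ _ => le_rfl)
    (fun h => mul_nonneg (Wk_nonneg w0 h) (ex_pos _ _).le)
    (hol_Wex w0 hw fun _ => le_rfl) hf hg s1 s2 s3 s4

omit [Fintype V] in
/-- the value on the configuration `0` -/
lemma Wk_zero_pos {w : E → ℤ → ℝ} (h00 : ∀ e, 0 < w e 0) : 0 < Wk s t w (0 : V → ℤ) :=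
  Finset.prod_pos fun e _ => by simpa using h00 e

lemma tsum_pin_zero_pos {w : E → ℤ → ℝ} (w0 : ∀ e n, 0 ≤ w e n) (h00 : ∀ e, 0 < w e 0)
    {P : Set V} (ρ : V → ℝ) (s1 : Summable fun h : pin P (0 : V → ℤ) => Wk s t w h * ex ρ h) :
    0 < ∑' h : pin P (0 : V → ℤ), Wk s t w h * ex ρ h :=
  s1.tsum_pos (fun _ => mul_nonneg (Wk_nonneg w0 _) (ex_pos _ _).le)
    (⟨0, fun _ _ => rfl⟩ : pin P (0 : V → ℤ)) (mul_pos (Wk_zero_pos h00) (ex_pos _ _))

/-- the sum over the heights with boundary value `0` is even in the tilt -/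
lemma tsum_pin_zero_neg {w : E → ℤ → ℝ} (he : ∀ e n, w e (-n) = w e n) {P : Set V} (ρ : V → ℝ) :
    ∑' h : pin P (0 : V → ℤ), Wk s t w h * ex (fun v => -ρ v) h =
      ∑' h : pin P (0 : V → ℤ), Wk s t w h * ex ρ h := by
  let σ : pin P (0 : V → ℤ) ≃ pin P (0 : V → ℤ) :=
    { toFun := fun h => ⟨-h.1, fun v hv => by
        rw [Pi.neg_apply, h.2 v hv]; simp⟩
      invFun := fun h => ⟨-h.1, fun v hv => by
        rw [Pi.neg_apply, h.2 v hv]; simp⟩
      left_inv := fun h => Subtype.ext (neg_neg h.1)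
      right_inv := fun h => Subtype.ext (neg_neg h.1) }
  rw [← σ.tsum_eq]
  refine tsum_congr fun h => ?_
  show Wk s t w (-h.1) * ex (fun v => -ρ v) (-h.1) = _
  rw [Wk_neg he, ex_neg]
  simp only [neg_neg]

/-- with boundary value `0` the sum increases with the tilt -/
theorem zero_mono {w : E → ℤ → ℝ} (w0 : ∀ e n, 0 ≤ w e n) (hw : ∀ e, LogC (w e))
    (he : ∀ e n, w e (-n) = w e n) (h00 : ∀ e, 0 < w e 0)
    {P : Set V} {ρ ρ' : V → ℝ} (h0 : ∀ v, 0 ≤ ρ v) (h1 : ∀ v, ρ v ≤ ρ' v)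
    (hs : ∀ ρ : V → ℝ, Summable fun h : pin P (0 : V → ℤ) => Wk s t w h * ex ρ h) :
    ∑' h : pin P (0 : V → ℤ), Wk s t w h * ex ρ h ≤
      ∑' h : pin P (0 : V → ℤ), Wk s t w h * ex ρ' h := by
  have e0 : ∀ h : V → ℤ, Wk s t w h * ex (fun _ => (0 : ℝ)) h = Wk s t w h := fun h => by
    rw [ex_zero, mul_one]
  have hZ : 0 < ∑' h : pin P (0 : V → ℤ), Wk s t w h := by
    have := tsum_pin_zero_pos w0 h00 (fun _ => (0 : ℝ)) (hs _)
    simpa only [e0] using this
  have hsW : Summable fun h : pin P (0 : V → ℤ) => Wk s t w h := by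
    simpa only [e0] using hs fun _ => (0 : ℝ)
  set g : V → ℝ := fun v => ρ' v - ρ v with hg
  have hg0 : ∀ v, 0 ≤ g v := fun v => sub_nonneg.2 (h1 v)
  have e1 : ∀ h : V → ℤ, Wk s t w h * (ex ρ h * ex g h) = Wk s t w h * ex ρ' h := by
    intro h
    rw [← ex_add]
    congr 2
    funext v
    simp only [hg]
    ring
  have hF := fkg_on (A := pin P (0 : V → ℤ)) (μ := Wk s t w) (f := ex ρ) (g := ex g)
    (pin_le fun _ _ => le_rfl) (Wk_nonneg w0) (hol_Wk w0 hw) (ex_mono h0) (ex_mono hg0) hsW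
    (hs ρ) (hs g) ((hs ρ').congr fun h => (e1 h).symm)
  simp only [e1] at hF
  -- the sum with the tilt `g` is at least the sum without tilt
  have hc : ∑' h : pin P (0 : V → ℤ), Wk s t w h ≤ ∑' h : pin P (0 : V → ℤ), Wk s t w h * ex g h := by
    have h2 : 2 * ∑' h : pin P (0 : V → ℤ), Wk s t w h ≤
        2 * ∑' h : pin P (0 : V → ℤ), Wk s t w h * ex g h := by
      rw [← tsum_mul_left]
      rw [two_mul (∑' h : pin P (0 : V → ℤ), Wk s t w h * ex g h)]
      nth_rewrite 2 [← tsum_pin_zero_neg he g]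
      rw [← (hs g).tsum_add (hs fun v => -g v)]
      refine (hsW.mul_left 2).tsum_le_tsum (fun h => ?_) ((hs g).add (hs fun v => -g v))
      rw [← mul_add, mul_comm 2]
      refine mul_le_mul_of_nonneg_left ?_ (Wk_nonneg w0 _)
      have h3 : ex g h.1 * ex (fun v => -g v) h.1 = 1 := by
        rw [← ex_add]
        simp only [add_neg_cancel]
        exact ex_zero _
      nlinarith [sq_nonneg (ex g h.1 - ex (fun v => -g v) h.1), ex_pos g h.1,
        ex_pos (fun v => -g v) h.1]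
    linarith
  have hρ0 : 0 ≤ ∑' h : pin P (0 : V → ℤ), Wk s t w h * ex ρ h :=
    tsum_nonneg fun h => mul_nonneg (Wk_nonneg w0 _) (ex_pos _ _).le
  have := (mul_le_mul_of_nonneg_left hc hρ0).trans hF
  rw [mul_comm] at this
  exact le_of_mul_le_mul_left this hZ

/-- nonpositive boundary values: the tilt may be flipped and increased -/
theorem sym_bd {w : E → ℤ → ℝ} (w0 : ∀ e n, 0 ≤ w e n) (hw : ∀ e, LogC (w e))
    (he : ∀ e n, w e (-n) = w e n) (h00 : ∀ e, 0 < w e 0)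
    {P : Set V} {b : V → ℤ} (hb : ∀ v ∈ P, b v ≤ 0) {ρ ρ' : V → ℝ} (h0 : ∀ v, 0 ≤ ρ v)
    (h1 : ∀ v, ρ v ≤ ρ' v)
    (hs : ∀ ρ : V → ℝ, Summable fun h : pin P b => Wk s t w h * ex ρ h)
    (hs0 : ∀ ρ : V → ℝ, Summable fun h : pin P (0 : V → ℤ) => Wk s t w h * ex ρ h) :
    ∑' h : pin P b, Wk s t w h * ex ρ h ≤ ∑' h : pin P b, Wk s t w h * ex (fun v => -ρ' v) h := by
  have e0 : ∀ h : V → ℤ, Wk s t w h * ex (fun _ => (0 : ℝ)) h = Wk s t w h := fun h => by
    rw [ex_zero, mul_one]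
  have hZ : 0 < ∑' h : pin P (0 : V → ℤ), Wk s t w h := by
    have := tsum_pin_zero_pos w0 h00 (fun _ => (0 : ℝ)) (hs0 _)
    simpa only [e0] using this
  have hsW0 : Summable fun h : pin P (0 : V → ℤ) => Wk s t w h := by
    simpa only [e0] using hs0 fun _ => (0 : ℝ)
  have hsW : Summable fun h : pin P b => Wk s t w h := by
    simpa only [e0] using hs fun _ => (0 : ℝ)
  have h0' : ∀ v, 0 ≤ ρ' v := fun v => (h0 v).trans (h1 v)
  have hle : SetLe (pin P b) (pin P (0 : V → ℤ)) := pin_le hb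
  have a1 := holley_on (μ := Wk s t w) (ν := Wk s t w) (f := ex ρ) hle (Wk_nonneg w0)
    (Wk_nonneg w0) (hol_Wk w0 hw) (ex_mono h0) hsW hsW0 (hs ρ) (hs0 ρ)
  have a2 := holley_on_anti (μ := Wk s t w) (ν := Wk s t w) (f := ex fun v => -ρ' v) hle
    (Wk_nonneg w0) (Wk_nonneg w0) (hol_Wk w0 hw) (ex_anti h0') hsW hsW0 (hs _) (hs0 _)
  rw [tsum_pin_zero_neg he] at a2
  have a3 := zero_mono w0 hw he h00 h0 h1 hs0
  have hB : 0 ≤ ∑' h : pin P b, Wk s t w h := tsum_nonneg fun h => Wk_nonneg w0 _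
  have a4 := mul_le_mul_of_nonneg_left a3 hB
  exact le_of_mul_le_mul_right (a1.trans (a4.trans a2)) hZ

end graph

end Vale.Agent.P159.T1.H897
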