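import Vale.Agent.P159.T1.H897.AmpC
import Vale.Agent.P159.T1.H897.Fkg2
import Vale.Agent.P159.T1.H254.UWDefs

/-!
The main inequality of the direct route on a finite graph (plan 115 (1), (4) of P159): exploration
of the cluster of `{h ≤ 0}` of the left lip, FKG, the arm bound.
-/

open Filter Topology

namespace Vale.Agent.P159.T1.H897

open Vale.Agent.P159 Vale.Agent.P159.H353 Vale.Agent.P159.T1.H934
open Vale.Agent.P159.T1.H254 (adjS)

/-- the arm bound on the coarse graph with the kernel `wI` (helper619, helper669) -/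
def StmtArmWI : Prop :=
  ∀ (V E : Type) [Fintype V] [DecidableEq V] [Fintype E] [DecidableEq E] (s t : E → V)
    (J : E → ℝ) (P Q A B : Finset V) (rA rB : V → ℝ) (F : Finset V → Prop)
    [DecidablePred F], Conn s t → (∀ e, 0 ≤ J e) → P.Nonempty →
    (∀ v, 0 ≤ rA v) → (∀ v, 0 ≤ rB v) → (∀ v, v ∉ A → rA v = 0) → (∀ v, v ∉ B → rB v = 0) →
    (∀ S T : Finset V, S ⊆ T → F S → F T) →
    (∀ T, F T → ∀ x ∈ A, ∀ y ∈ B, x ∉ T ∪ Q →
      ¬ Relation.ReflTransGen (adjS s t (T ∪ Q)) x y) →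
    (∑' h : V → ℤ, if (∀ v ∈ P, h v = 0) ∧ F (Finset.univ.filter fun v => h v ≤ 0) then
        W (grd s t) J h * Real.exp (∑ v, (rA v + rB v) * (h v : ℝ)) else 0) *
      (∑' h : V → ℤ, if ∀ v ∈ P ∪ Q, h v = 0 then
        W (grd s t) J h * Real.exp (∑ v, (rA v + rB v) * (h v : ℝ)) else 0) ≤
    (∑' h : V → ℤ, if ∀ v ∈ P, h v = 0 then
        W (grd s t) J h * Real.exp (∑ v, (rA v + rB v) * (h v : ℝ)) else 0) *
      (∑' h : V → ℤ, if ∀ v ∈ P ∪ Q, h v = 0 then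
        W (grd s t) J h * Real.exp (∑ v, (rA v - rB v) * (h v : ℝ)) else 0)

section main

variable {V E : Type} [Fintype V] [DecidableEq V] [Fintype E] [DecidableEq E] {s t : E → V}

/-- heights which vanish at the two lips and on `Q`, with the tilt `σ` -/
noncomputable def ZQ (s t : E → V) (J : E → ℝ) (xl xr : V) (Q : Finset V) (σ : V → ℝ) : ℝ :=
  ∑' h : V → ℤ, if (h xl = 0 ∧ h xr = 0) ∧ ∀ v ∈ Q, h v = 0 then
    W (grd s t) J h * Real.exp (∑ v, σ v * (h v : ℝ)) else 0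

/-- the weights with the two lips pinned to `0` -/
noncomputable def nu (s t : E → V) (J : E → ℝ) (xl xr : V) (ρ : V → ℝ) (h : V → ℤ) : ℝ :=
  if h xl = 0 ∧ h xr = 0 then W (grd s t) J h * Real.exp (∑ v, ρ v * (h v : ℝ)) else 0

omit [DecidableEq V] [DecidableEq E] in
lemma nu_nonneg {J : E → ℝ} (hJ : ∀ e, 0 ≤ J e) (xl xr : V) (ρ : V → ℝ) (h : V → ℤ) :
    0 ≤ nu s t J xl xr ρ h := by
  unfold nu
  split_ifs
  · exact mul_nonneg (W_nonneg hJ _) (Real.exp_pos _).le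
  · exact le_rfl

omit [DecidableEq V] [DecidableEq E] in
lemma nu_summable (hc : Conn s t) {J : E → ℝ} (hJ : ∀ e, 0 ≤ J e) (xl xr : V) (ρ : V → ℝ) :
    Summable (nu s t J xl xr ρ) :=
  summable_tilt2 hc hJ xl ρ (fun h => h xl = 0 ∧ h xr = 0) fun _ hh => hh.1

omit [DecidableEq V] [DecidableEq E] in
lemma nu_hol {J : E → ℝ} (hJ : ∀ e, 0 ≤ J e) (xl xr : V) {ρ ρ' : V → ℝ} (hρ : ∀ v, ρ v ≤ ρ' v) :
    Hol (nu s t J xl xr ρ) (nu s t J xl xr ρ') := by
  have h1 : Hol (fun h : V → ℤ => W (grd s t) J h * Real.exp (∑ v, ρ v * (h v : ℝ)))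
      fun h => W (grd s t) J h * Real.exp (∑ v, ρ' v * (h v : ℝ)) :=
    hol_Wex (s := s) (t := t) (w := fun e => wI (J e)) (fun e n => wI_nonneg (hJ e) n)
      (fun e => logC_wI (hJ e)) hρ
  intro x y
  have h2 := h1 x y
  unfold nu
  by_cases hx : x xl = 0 ∧ x xr = 0
  · by_cases hy : y xl = 0 ∧ y xr = 0
    · have h3 : (x ⊓ y) xl = 0 ∧ (x ⊓ y) xr = 0 := by
        simp only [Pi.inf_apply, hx.1, hx.2, hy.1, hy.2, inf_idem, and_self]
      have h4 : (x ⊔ y) xl = 0 ∧ (x ⊔ y) xr = 0 := by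
        simp only [Pi.sup_apply, hx.1, hx.2, hy.1, hy.2, sup_idem, and_self]
      rw [if_pos hx, if_pos hy, if_pos h3, if_pos h4]
      exact h2
    · rw [if_neg hy, mul_zero]
      exact mul_nonneg (nu_nonneg hJ xl xr ρ _) (nu_nonneg hJ xl xr ρ' _)
  · rw [if_neg hx, zero_mul]
    exact mul_nonneg (nu_nonneg hJ xl xr ρ _) (nu_nonneg hJ xl xr ρ' _)

omit [DecidableEq V] [DecidableEq E] in
lemma nu_pos (hc : Conn s t) {J : E → ℝ} (hJ : ∀ e, 0 ≤ J e) (xl xr : V) (ρ : V → ℝ) :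
    0 < ∑' h, nu s t J xl xr ρ h := by
  refine (nu_summable hc hJ xl xr ρ).tsum_pos (nu_nonneg hJ xl xr ρ) 0 ?_
  unfold nu
  rw [if_pos ⟨rfl, rfl⟩]
  refine mul_pos ?_ (Real.exp_pos _)
  refine Finset.prod_pos fun e _ => ?_
  rw [map_zero]
  exact wI_zero_pos (hJ e)

omit [DecidableEq V] [DecidableEq E] in
lemma nu_tsum (J : E → ℝ) (xl xr : V) (ρ : V → ℝ) :
    ∑' h, nu s t J xl xr ρ h = Zt s t J xl xr ρ 0 0 := by
  unfold nu Zt
  refine tsum_congr fun h => ?_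
  congr

/-- **The main inequality on a finite graph**, from the arm bound. -/
theorem main_graph_of (harm : StmtArmWI) (hc : Conn s t) {J : E → ℝ} (hJ : ∀ e, 0 ≤ J e)
    (xl xr : V) {ρ : V → ℝ} (hρ : ∀ v, 0 ≤ ρ v) {ι : Type} (I : Finset ι)
    (Bad : ι → Finset V → Prop) (A B Q : ι → Finset V) (rA rB : ι → V → ℝ) (F : Finset V)
    (h1 : ∀ i ∈ I, ∀ v, 0 ≤ rA i v ∧ 0 ≤ rB i v ∧ rA i v + rB i v ≤ ρ v)
    (h2 : ∀ i ∈ I, ∀ v, v ∉ A i → rA i v = 0) (h3 : ∀ i ∈ I, ∀ v, v ∉ B i → rB i v = 0)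
    (hmono : ∀ i ∈ I, ∀ N N' : Finset V, N ⊆ N' → Bad i N → Bad i N')
    (hsep : ∀ i ∈ I, ∀ N : Finset V, xl ∈ N → xr ∈ N → Bad i N → ∀ x ∈ A i, ∀ y ∈ B i,
      x ∉ N ∪ Q i → ¬ Relation.ReflTransGen (adjS s t (N ∪ Q i)) x y)
    (hcov : ∀ N : Finset V, xl ∈ N → xr ∈ N → Relation.ReflTransGen (adjS s t Nᶜ) xl xr →
      (∃ i ∈ I, Bad i N) ∨ ∃ f ∈ F, f ∈ N) :
    Zt s t J xl xr 0 0 0 * Zt s t J xl xr ρ 0 0 *
        (∏ i ∈ I, max 0 (1 - ZQ s t J xl xr (Q i) (fun v => rA i v - rB i v) /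
          ZQ s t J xl xr (Q i) (fun v => rA i v + rB i v))) *
        (∏ f ∈ F, (∑' h : V → ℤ, if (h xl = 0 ∧ h xr = 0) ∧ 1 ≤ h f then
          W (grd s t) J h else 0) / Zt s t J xl xr 0 0 0) ≤
      Zt s t J xl xr 0 0 1 * Zt s t J xl xr ρ 1 0 := by
  classical
  set Nh : (V → ℤ) → Finset V := fun h => Finset.univ.filter fun v => h v ≤ 0 with hNh
  have mNh : ∀ (h : V → ℤ) (v : V), v ∈ Nh h ↔ h v ≤ 0 := fun h v => by
    rw [hNh, Finset.mem_filter]
    exact ⟨fun h => h.2, fun h => ⟨Finset.mem_univ _, h⟩⟩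
  have aNh : ∀ {g h : V → ℤ}, g ≤ h → Nh h ⊆ Nh g := fun {g h} hgh v hv => by
    rw [mNh] at hv ⊢
    exact (hgh v).trans hv
  -- the increasing functions
  set f : ι ⊕ V → (V → ℤ) → ℝ := Sum.elim
    (fun i h => if (xl ∈ Nh h ∧ xr ∈ Nh h) ∧ Bad i (Nh h) then 0 else 1)
    (fun v h => if 1 ≤ h v then 1 else 0) with hf
  set S : Finset (ι ⊕ V) := I.disjSum F with hS
  have f0 : ∀ i ∈ S, ∀ x, 0 ≤ f i x := by
    rintro (i | v) _ x
    · show 0 ≤ (if (xl ∈ Nh x ∧ xr ∈ Nh x) ∧ Bad i (Nh x) then (0 : ℝ) else 1)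
      split_ifs <;> norm_num
    · show 0 ≤ (if 1 ≤ x v then (1 : ℝ) else 0)
      split_ifs <;> norm_num
  have f1 : ∀ i ∈ S, ∀ x, f i x ≤ 1 := by
    rintro (i | v) _ x
    · show (if (xl ∈ Nh x ∧ xr ∈ Nh x) ∧ Bad i (Nh x) then (0 : ℝ) else 1) ≤ 1
      split_ifs <;> norm_num
    · show (if 1 ≤ x v then (1 : ℝ) else 0) ≤ 1
      split_ifs <;> norm_num
  have fm : ∀ i ∈ S, Monotone (f i) := by
    rintro (i | v) hi x y hxy
    · have hi' : i ∈ I := by
        rw [hS, Finset.inl_mem_disjSum] at hi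
        exact hi
      show (if (xl ∈ Nh x ∧ xr ∈ Nh x) ∧ Bad i (Nh x) then (0 : ℝ) else 1) ≤
        (if (xl ∈ Nh y ∧ xr ∈ Nh y) ∧ Bad i (Nh y) then (0 : ℝ) else 1)
      by_cases hy : (xl ∈ Nh y ∧ xr ∈ Nh y) ∧ Bad i (Nh y)
      · have hx : (xl ∈ Nh x ∧ xr ∈ Nh x) ∧ Bad i (Nh x) :=
          ⟨⟨aNh hxy hy.1.1, aNh hxy hy.1.2⟩, hmono i hi' _ _ (aNh hxy) hy.2⟩
        rw [if_pos hx, if_pos hy]
      · rw [if_neg hy]
        split_ifs <;> norm_num
    · show (if 1 ≤ x v then (1 : ℝ) else 0) ≤ (if 1 ≤ y v then (1 : ℝ) else 0)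
      by_cases hx : 1 ≤ x v
      · rw [if_pos hx, if_pos (hx.trans (hxy v))]
      · rw [if_neg hx]
        split_ifs <;> norm_num
  -- masses
  have n0 := nu_nonneg (s := s) (t := t) hJ xl xr
  have ns := nu_summable hc hJ xl xr
  have np := nu_pos hc hJ xl xr
  have nZ := nu_tsum (s := s) (t := t) J xl xr
  have hbd : ∀ (σ : V → ℝ) (g : (V → ℤ) → ℝ), (∀ x, 0 ≤ g x) → (∀ x, g x ≤ 1) →
      Summable fun x => nu s t J xl xr σ x * g x := fun σ g g0 g1 =>
    summable_mul_bdd (n0 σ) (ns σ) (C := 1) fun x => by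
      rw [abs_of_nonneg (g0 x)]; exact g1 x
  have hprod := fkg_prod (n0 ρ) (ns ρ) (np ρ) (nu_hol hJ xl xr fun _ => le_rfl) S fm f0 f1
  -- each factor
  have low : ∀ i ∈ S, ∀ σ : V → ℝ, (∀ v, σ v ≤ ρ v) →
      (∑' x, nu s t J xl xr σ x * f i x) / (∑' x, nu s t J xl xr σ x) ≤
        (∑' x, nu s t J xl xr ρ x * f i x) / ∑' x, nu s t J xl xr ρ x := by
    intro i hi σ hσ
    rw [div_le_div_iff₀ (np σ) (np ρ)]
    have := holley_tsum (n0 σ) (n0 ρ) (ns σ) (ns ρ) (hbd σ (f i) (f0 i hi) (f1 i hi))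
      (hbd ρ (f i) (f0 i hi) (f1 i hi)) (nu_hol hJ xl xr hσ) (fm i hi)
    rw [mul_comm (∑' x, nu s t J xl xr ρ x * f i x)]
    exact this
  have lowI : ∀ i ∈ I, max 0 (1 - ZQ s t J xl xr (Q i) (fun v => rA i v - rB i v) /
      ZQ s t J xl xr (Q i) (fun v => rA i v + rB i v)) ≤
      (∑' x, nu s t J xl xr ρ x * f (Sum.inl i) x) / ∑' x, nu s t J xl xr ρ x := by
    intro i hi
    have hiS : Sum.inl i ∈ S := by
      rw [hS, Finset.inl_mem_disjSum]
      exact hi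
    refine max_le ?_ ?_
    · exact div_nonneg (tsum_nonneg fun x => mul_nonneg (n0 ρ x) (f0 _ hiS x)) (np ρ).le
    refine le_trans ?_ (low _ hiS (fun v => rA i v + rB i v) fun v => (h1 i hi v).2.2)
    set σ : V → ℝ := fun v => rA i v + rB i v with hσ
    -- the complement
    set g : (V → ℤ) → ℝ := fun h => if (xl ∈ Nh h ∧ xr ∈ Nh h) ∧ Bad i (Nh h) then 1 else 0
      with hg
    have g0 : ∀ x, 0 ≤ g x := fun x => by simp only [hg]; split_ifs <;> norm_num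
    have g1 : ∀ x, g x ≤ 1 := fun x => by simp only [hg]; split_ifs <;> norm_num
    have hfg : ∀ x, f (Sum.inl i) x = 1 - g x := fun x => by
      show (if (xl ∈ Nh x ∧ xr ∈ Nh x) ∧ Bad i (Nh x) then (0 : ℝ) else 1) = _
      simp only [hg]
      split_ifs <;> norm_num
    have e1 : ∑' x, nu s t J xl xr σ x * f (Sum.inl i) x =
        ∑' x, nu s t J xl xr σ x - ∑' x, nu s t J xl xr σ x * g x := by
      rw [← (ns σ).tsum_sub (hbd σ g g0 g1)]
      exact tsum_congr fun x => by rw [hfg]; ring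
    rw [e1, sub_div, div_self (np σ).ne']
    have hZQ : 0 < ZQ s t J xl xr (Q i) σ := by
      have hs := summable_tilt2 hc hJ xl σ (fun h : V → ℤ => (h xl = 0 ∧ h xr = 0) ∧
        ∀ v ∈ Q i, h v = 0) fun _ hh => hh.1.1
      refine hs.tsum_pos (fun h => ?_) 0 ?_
      · split_ifs
        · exact mul_nonneg (W_nonneg hJ _) (Real.exp_pos _).le
        · exact le_rfl
      · rw [if_pos ⟨⟨rfl, rfl⟩, fun _ _ => rfl⟩]
        refine mul_pos ?_ (Real.exp_pos _)
        refine Finset.prod_pos fun e _ => ?_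
        rw [map_zero]
        exact wI_zero_pos (hJ e)
    have key : (∑' x, nu s t J xl xr σ x * g x) * ZQ s t J xl xr (Q i) σ ≤
        (∑' x, nu s t J xl xr σ x) * ZQ s t J xl xr (Q i) (fun v => rA i v - rB i v) := by
      have h := harm V E s t J {xl, xr} (Q i) (A i) (B i) (rA i) (rB i)
        (fun T => (xl ∈ T ∧ xr ∈ T) ∧ Bad i T) hc hJ ⟨xl, by simp⟩
        (fun v => (h1 i hi v).1) (fun v => (h1 i hi v).2.1) (h2 i hi) (h3 i hi)
        (fun S T hST hS => ⟨⟨hST hS.1.1, hST hS.1.2⟩, hmono i hi _ _ hST hS.2⟩)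
        (fun T hT x hx y hy hxT => hsep i hi T hT.1.1 hT.1.2 hT.2 x hx y hy hxT)
      have c1 : ∀ h : V → ℤ, (∀ v ∈ ({xl, xr} : Finset V), h v = 0) ↔ (h xl = 0 ∧ h xr = 0) := by
        intro h
        constructor
        · intro h'
          exact ⟨h' xl (by simp), h' xr (by simp)⟩
        · rintro ⟨a1, a2⟩ v hv
          rw [Finset.mem_insert, Finset.mem_singleton] at hv
          rcases hv with rfl | rfl
          · exact a1
          · exact a2
      have c2 : ∀ h : V → ℤ, (∀ v ∈ ({xl, xr} : Finset V) ∪ Q i, h v = 0) ↔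
          ((h xl = 0 ∧ h xr = 0) ∧ ∀ v ∈ Q i, h v = 0) := by
        intro h
        rw [← c1 h]
        constructor
        · intro h'
          exact ⟨fun v hv => h' v (Finset.mem_union_left _ hv),
            fun v hv => h' v (Finset.mem_union_right _ hv)⟩
        · rintro ⟨a1, a2⟩ v hv
          rcases Finset.mem_union.1 hv with hv | hv
          · exact a1 v hv
          · exact a2 v hv
      simp only [c1, c2] at h
      refine le_trans (le_of_eq ?_) (h.trans (le_of_eq ?_))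
      · congr 1
        · refine tsum_congr fun x => ?_
          unfold nu
          simp only [hg]
          by_cases q1 : x xl = 0 ∧ x xr = 0
          · by_cases q2 : (xl ∈ Nh x ∧ xr ∈ Nh x) ∧ Bad i (Nh x)
            · rw [if_pos q1, if_pos q2, if_pos ⟨q1, q2⟩, mul_one]
            · rw [if_pos q1, if_neg q2, mul_zero, if_neg (fun h' => q2 h'.2)]
          · rw [if_neg q1, zero_mul, if_neg (fun h' => q1 h'.1)]
      · rfl
    have : (∑' x, nu s t J xl xr σ x * g x) / (∑' x, nu s t J xl xr σ x) ≤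
        ZQ s t J xl xr (Q i) (fun v => rA i v - rB i v) / ZQ s t J xl xr (Q i) σ := by
      rw [div_le_div_iff₀ (np σ) hZQ]
      rw [mul_comm (ZQ s t J xl xr (Q i) (fun v => rA i v - rB i v))]
      exact key
    linarith
  have lowF : ∀ v ∈ F, (∑' h : V → ℤ, if (h xl = 0 ∧ h xr = 0) ∧ 1 ≤ h v then
      W (grd s t) J h else 0) / Zt s t J xl xr 0 0 0 ≤
      (∑' x, nu s t J xl xr ρ x * f (Sum.inr v) x) / ∑' x, nu s t J xl xr ρ x := by
    intro v hv
    have hiS : Sum.inr v ∈ S := by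
      rw [hS, Finset.inr_mem_disjSum]
      exact hv
    refine le_trans (le_of_eq ?_) (low _ hiS 0 hρ)
    rw [← nZ 0]
    congr 1
    refine tsum_congr fun x => ?_
    unfold nu
    show _ = _ * (if 1 ≤ x v then (1 : ℝ) else 0)
    by_cases q1 : x xl = 0 ∧ x xr = 0
    · by_cases q2 : 1 ≤ x v
      · rw [if_pos q1, if_pos q2, if_pos ⟨q1, q2⟩]
        simp
      · rw [if_pos q1, if_neg q2, if_neg (fun h' => q2 h'.2), mul_zero]
    · rw [if_neg q1, if_neg (fun h' => q1 h'.1), zero_mul]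
  have lowF0 : ∀ v ∈ F, 0 ≤ (∑' h : V → ℤ, if (h xl = 0 ∧ h xr = 0) ∧ 1 ≤ h v then
      W (grd s t) J h else 0) / Zt s t J xl xr 0 0 0 := by
    intro v _
    rw [← nZ 0]
    refine div_nonneg (tsum_nonneg fun h => ?_) (np 0).le
    split_ifs
    · exact W_nonneg hJ _
    · exact le_rfl
  -- the product
  have hP : (∏ i ∈ I, max 0 (1 - ZQ s t J xl xr (Q i) (fun v => rA i v - rB i v) /
        ZQ s t J xl xr (Q i) (fun v => rA i v + rB i v))) *
      (∏ f ∈ F, (∑' h : V → ℤ, if (h xl = 0 ∧ h xr = 0) ∧ 1 ≤ h f then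
          W (grd s t) J h else 0) / Zt s t J xl xr 0 0 0) ≤
      (∑' x, nu s t J xl xr ρ x * ∏ i ∈ S, f i x) / ∑' x, nu s t J xl xr ρ x := by
    refine le_trans ?_ hprod
    rw [hS, Finset.prod_disjSum]
    refine mul_le_mul (Finset.prod_le_prod (fun _ _ => le_max_left _ _) lowI)
      (Finset.prod_le_prod lowF0 lowF) (Finset.prod_nonneg lowF0) ?_
    exact Finset.prod_nonneg fun i hi => div_nonneg (tsum_nonneg fun x => mul_nonneg (n0 ρ x)
      (f0 _ (by rw [hS, Finset.inl_mem_disjSum]; exact hi) x)) (np ρ).le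
  -- the event
  have hE : ∑' x, nu s t J xl xr ρ x * ∏ i ∈ S, f i x ≤
      ∑' h : V → ℤ, if (h xl = 0 ∧ h xr = 0) ∧ ¬ LJ s t xl xr h then
        W (grd s t) J h * Real.exp (∑ v, ρ v * (h v : ℝ)) else 0 := by
    have P0 : ∀ x, 0 ≤ ∏ i ∈ S, f i x := fun x => Finset.prod_nonneg fun i hi => f0 i hi x
    have P1 : ∀ x, ∏ i ∈ S, f i x ≤ 1 := fun x =>
      Finset.prod_le_one (fun i hi => f0 i hi x) fun i hi => f1 i hi x
    refine Summable.tsum_le_tsum (fun h => ?_) (hbd ρ _ P0 P1)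
      (summable_tilt2 hc hJ xl ρ (fun h => (h xl = 0 ∧ h xr = 0) ∧ ¬ LJ s t xl xr h)
        fun _ hh => hh.1.1)
    by_cases q1 : h xl = 0 ∧ h xr = 0
    · by_cases q2 : LJ s t xl xr h
      · have hz : ∏ i ∈ S, f i h = 0 := by
          have b1 : xl ∈ Nh h := (mNh h xl).2 q1.1.le
          have b2 : xr ∈ Nh h := (mNh h xr).2 q1.2.le
          have b3 : Relation.ReflTransGen (adjS s t (Nh h)ᶜ) xl xr := by
            refine Relation.ReflTransGen.mono (fun x y hh => ?_) xl xr q2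
            obtain ⟨hx, hy, hxy⟩ := hh
            refine ⟨?_, ?_, hxy⟩
            · rw [Finset.mem_compl, not_not]
              exact (mNh h x).2 hx
            · rw [Finset.mem_compl, not_not]
              exact (mNh h y).2 hy
          rcases hcov (Nh h) b1 b2 b3 with ⟨i, hi, hbad⟩ | ⟨v, hv, hvN⟩
          · refine Finset.prod_eq_zero (i := Sum.inl i) (by
              rw [hS, Finset.inl_mem_disjSum]; exact hi) ?_
            show (if (xl ∈ Nh h ∧ xr ∈ Nh h) ∧ Bad i (Nh h) then (0 : ℝ) else 1) = 0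
            rw [if_pos ⟨⟨b1, b2⟩, hbad⟩]
          · refine Finset.prod_eq_zero (i := Sum.inr v) (by
              rw [hS, Finset.inr_mem_disjSum]; exact hv) ?_
            show (if 1 ≤ h v then (1 : ℝ) else 0) = 0
            rw [if_neg]
            have := (mNh h v).1 hvN
            omega
        rw [hz, mul_zero, if_neg (fun h' => h'.2 q2)]
      · rw [if_pos ⟨q1, q2⟩]
        refine (mul_le_of_le_one_right (n0 ρ h) (P1 h)).trans (le_of_eq ?_)
        unfold nu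
        rw [if_pos q1]
    · unfold nu
      rw [if_neg q1, zero_mul, if_neg (fun h' => q1 h'.1)]
  have hamp := amp_coarse hc hJ xl xr hρ
  refine le_trans ?_ hamp
  have hZ0 : 0 ≤ Zt s t J xl xr 0 0 0 := by
    rw [← nZ 0]
    exact (np 0).le
  rw [← nZ ρ, mul_comm _ (Zt s t J xl xr 0 0 0), mul_assoc, mul_assoc]
  refine mul_le_mul_of_nonneg_left ?_ hZ0
  have h9 := mul_le_mul_of_nonneg_left hP (np ρ).le
  rw [mul_div_cancel₀ _ (np ρ).ne'] at h9
  exact h9.trans hE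

end main

end Vale.Agent.P159.T1.H897
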