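import Vale.Agent.P159.T1.H897.MainG
import Vale.Agent.P159.T1.H619.ArmW

/-!
The main inequality of the direct route on a finite graph, without hypothesis.
-/

open Filter Topology

namespace Vale.Agent.P159.T1.H897

open Vale.Agent.P159 Vale.Agent.P159.H353 Vale.Agent.P159.T1.H934
open Vale.Agent.P159.T1.H254 (adjS)

/-- the arm bound (helper619) -/
theorem armWI : StmtArmWI := by
  classical
  intro V E _ _ _ _ s t J P Q A B rA rB F _ hc hJ hP hA0 hB0 hA hB hF hsep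
  have h := H619.arm_W0 (s := s) (t := t) hc hJ hP hA0 hB0 hA hB (F := F) hF
    (fun T _ hT x hx y hy hxT hr => by
      refine hsep T hT x hx y hy ?_ ?_
      · convert hxT
      · convert hr)
  refine le_trans (le_of_eq ?_) (h.trans (le_of_eq ?_))
  · congr!
  · congr!

/-- **The main inequality on a finite graph.** -/
theorem main_graph {V E : Type} [Fintype V] [DecidableEq V] [Fintype E] [DecidableEq E]
    {s t : E → V} (hc : Conn s t) {J : E → ℝ} (hJ : ∀ e, 0 ≤ J e)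
    (xl xr : V) {ρ : V → ℝ} (hρ : ∀ v, 0 ≤ ρ v) {ι : Type} (I : Finset ι)
    (Bad : ι → Finset V → Prop) (A B Q : ι → Finset V) (rA rB : ι → V → ℝ) (F : Finset V)
    (h1 : ∀ i ∈ I, ∀ v, 0 ≤ rA i v ∧ 0 ≤ rB i v ∧ rA i v + rB i v ≤ ρ v)
    (h2 : ∀ i ∈ I, ∀ v, v ∉ A i → rA i v = 0) (h3 : ∀ i ∈ I, ∀ v, v ∉ B i → rB i v = 0)
    (hmono : ∀ i ∈ I, ∀ N N' : Finset V, N ⊆ N' → Bad i N → Bad i N')
    (hsep : ∀ i ∈ I, ∀ N : Finset V, xl ∈ N → xr ∈ N → Bad i N → ∀ x ∈ A i, ∀ y ∈ B i,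
      x ∉ N ∪ Q i → ¬ Relation.ReflTransGen (adjS s t (N ∪ Q i)) x y)
    (hcov : ∀ N : Finset V, xl ∈ N → xr ∈ N → Relation.ReflTransGen (adjS s t Nᶜ) xl xr →
      (∃ i ∈ I, Bad i N) ∨ ∃ f ∈ F, f ∈ N) :
    Zt s t J xl xr 0 0 0 * Zt s t J xl xr ρ 0 0 *
        (∏ i ∈ I, max 0 (1 - ZQ s t J xl xr (Q i) (fun v => rA i v - rB i v) /
          ZQ s t J xl xr (Q i) (fun v => rA i v + rB i v))) *
        (∏ f ∈ F, (∑' h : V → ℤ, if (h xl = 0 ∧ h xr = 0) ∧ 1 ≤ h f then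
          W (grd s t) J h else 0) / Zt s t J xl xr 0 0 0) ≤
      Zt s t J xl xr 0 0 1 * Zt s t J xl xr ρ 1 0 :=
  main_graph_of armWI hc hJ xl xr hρ I Bad A B Q rA rB F h1 h2 h3 hmono hsep hcov

end Vale.Agent.P159.T1.H897
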