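import Vale.Agent.P159.R2.H729.Dbl
import Vale.Agent.P159.T1.H897.LogC

/-!
Steps truncated at `1` after `k` halvings of the coupling: the kernels `kt k J` increase to `wI J`.
-/

open Filter Topology

namespace Vale.Agent.P159.T1.H897

open Vale.Agent.P159 Vale.Agent.P159.H353

/-- `2 ^ k` steps with coupling `J / 2 ^ k`, each of size at most `1` -/
noncomputable def kt : ℕ → ℝ → ℤ → ℝ
  | 0, J, n => if |n| ≤ 1 then wI J n else 0
  | k + 1, J, n => ∑' m : ℤ, kt k (J / 2) m * kt k (J / 2) (n - m)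

lemma conv_real {p q : ℤ → ℝ} (p0 : ∀ k, 0 ≤ p k) (q0 : ∀ k, 0 ≤ q k) (sp : Summable p)
    (sq : Summable q) :
    (∀ n, Summable fun m => p m * q (n - m)) ∧
    HasSum (fun n : ℤ => ∑' m : ℤ, p m * q (n - m)) ((∑' k, p k) * ∑' k, q k) := by
  have h1 : Summable fun x : ℤ × ℤ => p x.1 * q x.2 := sp.mul_of_nonneg sq p0 q0
  have h2 : HasSum (fun x : ℤ × ℤ => p x.1 * q x.2) ((∑' k, p k) * ∑' k, q k) := by
    rw [sp.tsum_mul_tsum sq h1]
    exact h1.hasSum
  let e : ℤ × ℤ ≃ ℤ × ℤ :=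
    { toFun := fun y => (y.2, y.1 - y.2)
      invFun := fun y => (y.1 + y.2, y.1)
      left_inv := fun y => by simp
      right_inv := fun y => by simp }
  have h3 : HasSum (fun y : ℤ × ℤ => p y.2 * q (y.1 - y.2)) ((∑' k, p k) * ∑' k, q k) :=
    e.hasSum_iff.2 h2
  have h4 : ∀ n, Summable fun m => p m * q (n - m) := fun n => h3.summable.prod_factor n
  exact ⟨h4, HasSum.prod_fiberwise h3 fun n => (h4 n).hasSum⟩

lemma kt_all (k : ℕ) : ∀ {J : ℝ}, 0 ≤ J → (∀ n, 0 ≤ kt k J n) ∧ (∀ n, kt k J n ≤ wI J n) ∧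
    Summable (kt k J) := by
  induction k with
  | zero =>
    intro J hJ
    refine ⟨fun n => ?_, fun n => ?_, ?_⟩
    · simp only [kt]
      split_ifs
      · exact wI_nonneg hJ n
      · exact le_rfl
    · simp only [kt]
      split_ifs
      · exact le_rfl
      · exact wI_nonneg hJ n
    · refine summable_of_ne_finset_zero (s := Finset.Icc (-1 : ℤ) 1) fun n hn => ?_
      rw [Finset.mem_Icc] at hn
      simp only [kt]
      rw [if_neg]
      intro h
      rw [abs_le] at h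
      exact hn h
  | succ k ih =>
    intro J hJ
    have hJ2 : 0 ≤ J / 2 := by linarith
    obtain ⟨h1, h2, h3⟩ := ih hJ2
    obtain ⟨h4, h5⟩ := conv_real h1 h1 h3 h3
    refine ⟨fun n => tsum_nonneg fun m => mul_nonneg (h1 _) (h1 _), fun n => ?_, h5.summable⟩
    have h6 := T1.H532.wI_conv hJ2 hJ2 n
    rw [add_halves] at h6
    rw [← h6.tsum_eq]
    exact (h4 n).tsum_le_tsum (fun m => mul_le_mul (h2 _) (h2 _) (h1 _)
      (wI_nonneg hJ2 _)) h6.summable

lemma kt_nonneg (k : ℕ) {J : ℝ} (hJ : 0 ≤ J) (n : ℤ) : 0 ≤ kt k J n := (kt_all k hJ).1 n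

lemma kt_le (k : ℕ) {J : ℝ} (hJ : 0 ≤ J) (n : ℤ) : kt k J n ≤ wI J n := (kt_all k hJ).2.1 n

lemma kt_summable (k : ℕ) {J : ℝ} (hJ : 0 ≤ J) : Summable (kt k J) := (kt_all k hJ).2.2

lemma kt_succ_hasSum (k : ℕ) {J : ℝ} (hJ : 0 ≤ J) (n : ℤ) :
    HasSum (fun m : ℤ => kt k (J / 2) m * kt k (J / 2) (n - m)) (kt (k + 1) J n) := by
  have hJ2 : 0 ≤ J / 2 := by linarith
  obtain ⟨h1, h2, h3⟩ := kt_all k hJ2
  exact ((conv_real h1 h1 h3 h3).1 n).hasSum

lemma wI_hasSum {J : ℝ} (hJ : 0 ≤ J) : HasSum (wI J) (Real.exp J) := by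
  have h := hasSum_gS hJ 0
  have e : ∀ n : ℤ, ((wI J n : ℂ) * (fourier n (0 : T) : ℂ)) = ((wI J n : ℝ) : ℂ) := by
    intro n
    simp
  have hc : cosT (0 : T) = 1 := Real.Angle.cos_zero
  have e2 : (gS J 0 : ℂ) = ((Real.exp J : ℝ) : ℂ) := by
    unfold gS
    rw [hc, mul_one]
  rw [e2] at h
  have h2 := T1.H897.hsn_congr h e
  exact Complex.hasSum_ofReal.1 h2

lemma wI_zero_ge {J : ℝ} (hJ : 0 ≤ J) : 1 ≤ wI J 0 := by
  rw [wI_eq_pcv hJ]
  have hx : 0 ≤ J / 2 := by linarith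
  have h := (summable_poi_sub hx 0).le_tsum 0 fun k _ => mul_nonneg (poi_nonneg hx _)
    (poi_nonneg hx _)
  refine le_trans (le_of_eq ?_) h
  simp [poi]

lemma wI_one_ge {J : ℝ} (hJ : 0 ≤ J) : J / 2 ≤ wI J 1 := by
  rw [wI_eq_pcv hJ]
  have hx : 0 ≤ J / 2 := by linarith
  have h := (summable_poi_sub hx 1).le_tsum 0 fun k _ => mul_nonneg (poi_nonneg hx _)
    (poi_nonneg hx _)
  refine le_trans (le_of_eq ?_) h
  simp [poi]

lemma kt_mass (k : ℕ) : ∀ {J : ℝ}, 0 ≤ J → (1 + J / 2 ^ k) ^ 2 ^ k ≤ ∑' n, kt k J n := by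
  induction k with
  | zero =>
    intro J hJ
    have h1 : ∑' n, kt 0 J n = ∑ n ∈ Finset.Icc (-1 : ℤ) 1, kt 0 J n := by
      refine tsum_eq_sum fun n hn => ?_
      rw [Finset.mem_Icc] at hn
      simp only [kt]
      rw [if_neg]
      intro h
      rw [abs_le] at h
      exact hn h
    have h2 : (Finset.Icc (-1 : ℤ) 1) = {-1, 0, 1} := by decide
    rw [h1, h2, Finset.sum_insert (by decide), Finset.sum_insert (by decide),
      Finset.sum_singleton]
    simp only [kt]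
    rw [if_pos (by norm_num), if_pos (by norm_num), if_pos (by norm_num), wI_neg]
    have := wI_zero_ge hJ
    have := wI_one_ge hJ
    simp only [pow_zero, div_one, pow_one]
    linarith
  | succ k ih =>
    intro J hJ
    have hJ2 : 0 ≤ J / 2 := by linarith
    obtain ⟨h1, h2, h3⟩ := kt_all k hJ2
    have h4 := (conv_real h1 h1 h3 h3).2.tsum_eq
    have h5 : ∑' n, kt (k + 1) J n = (∑' n, kt k (J / 2) n) * ∑' n, kt k (J / 2) n := h4
    rw [h5]
    have h6 := ih hJ2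
    have e : (1 + J / 2 ^ (k + 1)) ^ 2 ^ (k + 1) =
        (1 + J / 2 / 2 ^ k) ^ 2 ^ k * (1 + J / 2 / 2 ^ k) ^ 2 ^ k := by
      rw [← pow_add]
      congr 1
      · rw [pow_succ]
        field_simp
      · rw [pow_succ]
        ring
    rw [e]
    have h7 : 0 ≤ (1 + J / 2 / 2 ^ k) ^ 2 ^ k := by positivity
    exact mul_le_mul h6 h6 h7 (h7.trans h6)

/-- the truncated kernels converge to `wI` -/
theorem kt_lim {J : ℝ} (hJ : 0 ≤ J) (n : ℤ) : Tendsto (fun k => kt k J n) atTop (𝓝 (wI J n)) := by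
  have h1 : Tendsto (fun k : ℕ => Real.exp J - (1 + J / 2 ^ k) ^ 2 ^ k) atTop (𝓝 0) := by
    have h2 := (Real.tendsto_one_add_div_pow_exp J).comp
      (tendsto_pow_atTop_atTop_of_one_lt (one_lt_two (α := ℕ)))
    have h3 := (tendsto_const_nhds (x := Real.exp J)).sub h2
    rw [sub_self] at h3
    refine h3.congr fun k => ?_
    simp only [Function.comp]
    push_cast
    rfl
  have h4 : ∀ k, wI J n - kt k J n ≤ Real.exp J - (1 + J / 2 ^ k) ^ 2 ^ k := by
    intro k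
    have h5 : Summable fun n => wI J n - kt k J n :=
      (summable_wI hJ).sub (kt_summable k hJ)
    have h6 := h5.le_tsum n fun j _ => sub_nonneg.2 (kt_le k hJ j)
    rw [(summable_wI hJ).tsum_sub (kt_summable k hJ), (wI_hasSum hJ).tsum_eq] at h6
    have := kt_mass k hJ
    linarith
  have h7 : Tendsto (fun k => wI J n - kt k J n) atTop (𝓝 0) :=
    squeeze_zero (fun k => sub_nonneg.2 (kt_le k hJ n)) h4 h1
  have h8 := (tendsto_const_nhds (x := wI J n)).sub h7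
  rw [sub_zero] at h8
  refine h8.congr fun k => by ring

end Vale.Agent.P159.T1.H897
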